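import Vale.Agent.P068.Sys

namespace Vale.Agent.P068

open Set Cardinal

/-- The well-ordered index set of length continuum. -/
abbrev Om : Type := (Cardinal.ord (𝔠 : Cardinal.{0})).ToType

theorem mk_Om : #Om = 𝔠 := by
  simp [Om]

theorem Om_Iio_lt (a : Om) : #(Iio a) < 𝔠 := by
  have := mk_Iio_lt a (by simp [Om])
  rwa [mk_Om] at this

theorem Om_Iic_lt (a : Om) : #(Iic a) < 𝔠 := by
  have h : (Iic a) = Iio a ∪ {a} := by
    ext x
    simp [le_iff_lt_or_eq]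
  rw [h]
  refine lt_of_le_of_lt (Cardinal.mk_union_le _ _) ?_
  refine Cardinal.add_lt_of_lt Cardinal.aleph0_le_continuum (Om_Iio_lt a) ?_
  simpa using Cardinal.nat_lt_continuum 1

theorem Om_bdd (s : ℕ → Om) : ∃ x, ∀ n, s n ≤ x := by
  by_contra hcon
  push Not at hcon
  have h1 : IsCofinal (range s) := by
    intro x
    obtain ⟨n, hn⟩ := hcon x
    exact ⟨s n, mem_range_self n, hn.le⟩
  have h2 := Order.cof_le h1
  have h3 : #(range s) ≤ ℵ₀ := Cardinal.mk_range_le.trans (by simp)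
  have h4 : Order.cof Om = (Cardinal.ord (𝔠 : Cardinal.{0})).cof := Ordinal.cof_toType _
  have h5 : ℵ₀ < (Cardinal.ord (𝔠 : Cardinal.{0})).cof := by
    have := Cardinal.lt_cof_ord_power (a := ℵ₀) (b := 2) le_rfl Cardinal.one_lt_two
    rwa [Cardinal.two_power_aleph0] at this
  rw [h4] at h2
  exact absurd (h5.trans_le (h2.trans h3)) (lt_irrefl _)

/-- A member of the base of the filter with a given index. -/
def hbase (v : Ultrafilter ℕ) (e : Om → Set ℕ) (t : Finset Om) (n : ℕ) : Set ℕ :=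
  {j | n ≤ j ∧ ∀ γ ∈ t, e γ ∈ v → j ∈ e γ}

/-- The filter generated by the cofinite sets and the members of `v` with small index. -/
def hF (v : Ultrafilter ℕ) (e : Om → Set ℕ) (a : Om) : Filter ℕ where
  sets := {S | ∃ t : Finset Om, (∀ γ ∈ t, γ ≤ a) ∧ ∃ n, hbase v e t n ⊆ S}
  univ_sets := ⟨∅, by simp, 0, subset_univ _⟩
  sets_of_superset := by
    rintro S T ⟨t, ht, n, h⟩ hST
    exact ⟨t, ht, n, h.trans hST⟩
  inter_sets := by
    classical
    rintro S T ⟨t, ht, n, h⟩ ⟨t', ht', n', h'⟩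
    refine ⟨t ∪ t', ?_, max n n', ?_⟩
    · intro γ hγ
      rcases Finset.mem_union.1 hγ with h1 | h1
      · exact ht γ h1
      · exact ht' γ h1
    · rintro j ⟨hj, hj2⟩
      refine ⟨h ⟨le_trans (le_max_left _ _) hj, fun γ hγ => hj2 γ (Finset.mem_union_left _ hγ)⟩,
        h' ⟨le_trans (le_max_right _ _) hj, fun γ hγ => hj2 γ (Finset.mem_union_right _ hγ)⟩⟩

theorem mem_hF {v : Ultrafilter ℕ} {e : Om → Set ℕ} {a : Om} {S : Set ℕ} :
    S ∈ hF v e a ↔ ∃ t : Finset Om, (∀ γ ∈ t, γ ≤ a) ∧ ∃ n, hbase v e t n ⊆ S := Iff.rfl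

theorem hbase_mem {v : Ultrafilter ℕ} (hv : (v : Filter ℕ) ≤ Filter.cofinite) (e : Om → Set ℕ)
    (t : Finset Om) (n : ℕ) : hbase v e t n ∈ v := by
  have h1 : {j | n ≤ j} ∈ v := by
    apply hv
    rw [Filter.mem_cofinite]
    refine (Set.finite_lt_nat n).subset ?_
    intro j hj
    simpa using hj
  have h2 : ∀ γ ∈ t, {j | e γ ∈ v → j ∈ e γ} ∈ v := by
    intro γ _
    by_cases h : e γ ∈ v
    · filter_upwards [h] with j hj _
      exact hj
    · filter_upwards with j hj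
      exact absurd hj h
  have h3 : (⋂ γ ∈ t, {j | e γ ∈ v → j ∈ e γ}) ∈ (v : Filter ℕ) :=
    (Filter.biInter_finset_mem t).2 h2
  filter_upwards [h1, h3] with j hj1 hj2
  refine ⟨hj1, ?_⟩
  intro γ hγ
  simp only [mem_iInter] at hj2
  exact hj2 γ hγ

theorem hbaseFam_lt (v : Ultrafilter ℕ) (e : Om → Set ℕ) (a : Om) :
    #({G : Set ℕ | ∃ t : Finset Om, (∀ γ ∈ t, γ ≤ a) ∧ ∃ n, G = hbase v e t n}) < 𝔠 := by
  classical
  have h1 : {G : Set ℕ | ∃ t : Finset Om, (∀ γ ∈ t, γ ≤ a) ∧ ∃ n, G = hbase v e t n} ⊆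
      range (fun p : Finset (Iic a) × ℕ => hbase v e (p.1.map (Function.Embedding.subtype _)) p.2) := by
    rintro G ⟨t, ht, n, rfl⟩
    refine ⟨(t.subtype (fun γ => γ ∈ Iic a), n), ?_⟩
    simp only
    congr 1
    rw [Finset.subtype_map]
    exact Finset.filter_true_of_mem (fun γ hγ => ht γ hγ)
  refine lt_of_le_of_lt (Cardinal.mk_le_mk_of_subset h1) ?_
  refine lt_of_le_of_lt Cardinal.mk_range_le ?_
  rw [Cardinal.mk_prod, Cardinal.lift_id, Cardinal.lift_id]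
  refine Cardinal.mul_lt_of_lt Cardinal.aleph0_le_continuum ?_ ?_
  · rcases finite_or_infinite (Iic a) with h | h
    · have : #(Finset (Iic a)) ≤ ℵ₀ := by
        have : Countable (Finset (Iic a)) := inferInstance
        exact Cardinal.mk_le_aleph0_iff.2 this
      exact lt_of_le_of_lt this Cardinal.aleph0_lt_continuum
    · rw [Cardinal.mk_finset_of_infinite]
      exact Om_Iic_lt a
  · simpa using Cardinal.aleph0_lt_continuum

/-- The filter on the cell. -/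
def HF (v w : Ultrafilter ℕ) (e : Om → Set ℕ) (a : Om) : Filter (ℕ × ℕ) :=
  Filter.bind (w : Filter ℕ) (fun n => (hF v e a).map (Prod.mk n))

theorem mem_HF {v w : Ultrafilter ℕ} {e : Om → Set ℕ} {a : Om} {S : Set (ℕ × ℕ)} :
    S ∈ HF v w e a ↔ ∀ᶠ n in (w : Filter ℕ), {j | (n, j) ∈ S} ∈ hF v e a := Iff.rfl

/-- The ultrafilter on the cell. -/
def UF (v w : Ultrafilter ℕ) : Ultrafilter (ℕ × ℕ) :=
  w.bind (fun n => v.map (Prod.mk n))

theorem mem_UF {v w : Ultrafilter ℕ} {S : Set (ℕ × ℕ)} :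
    S ∈ UF v w ↔ ∀ᶠ n in (w : Filter ℕ), {j | (n, j) ∈ S} ∈ v := Iff.rfl

theorem cofinite_mem_hF {v : Ultrafilter ℕ} {e : Om → Set ℕ} {a : Om} {S : Set ℕ}
    (h : Sᶜ.Finite) : S ∈ hF v e a := by
  obtain ⟨m, hm⟩ := h.bddAbove
  refine mem_hF.2 ⟨∅, by simp, m + 1, ?_⟩
  rintro j ⟨hj, _⟩
  by_contra h
  have := hm h
  omega

theorem pos_split (h1 : SplitHyp) (v w : Ultrafilter ℕ) (e : Om → Set ℕ) (a : Om)
    (X : Set (ℕ × ℕ)) (hX : Xᶜ ∉ HF v w e a) (𝒲 : Set (Set (ℕ × ℕ))) (hs : #𝒲 < 𝔠)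
    (hinf : ∀ A ∈ 𝒲, A.Infinite) :
    ∃ b : Set (ℕ × ℕ), (∀ A ∈ 𝒲, (A ∩ b).Infinite ∧ (A \ b).Infinite) ∧
      (X ∩ b)ᶜ ∉ HF v w e a ∧ (X \ b)ᶜ ∉ HF v w e a := by
  classical
  let 𝒢 : Set (Set ℕ) := {G : Set ℕ | ∃ t : Finset Om, (∀ γ ∈ t, γ ≤ a) ∧ ∃ n, G = hbase v e t n}
  let f : ℕ × 𝒢 → Set (ℕ × ℕ) := fun p => {q | q.1 = p.1 ∧ q.2 ∈ p.2.1 ∧ q ∈ X}
  let 𝒜 : Set (Set (ℕ × ℕ)) := 𝒲 ∪ (range f ∩ {A | A.Infinite})
  have hAs : #𝒜 < 𝔠 := by
    refine lt_of_le_of_lt (Cardinal.mk_union_le _ _) ?_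
    refine Cardinal.add_lt_of_lt Cardinal.aleph0_le_continuum hs ?_
    refine lt_of_le_of_lt (Cardinal.mk_le_mk_of_subset inter_subset_left) ?_
    refine lt_of_le_of_lt Cardinal.mk_range_le ?_
    rw [Cardinal.mk_prod, Cardinal.lift_id, Cardinal.lift_id]
    refine Cardinal.mul_lt_of_lt Cardinal.aleph0_le_continuum ?_ (hbaseFam_lt v e a)
    simpa using Cardinal.aleph0_lt_continuum
  obtain ⟨b, hb⟩ := h1.split 𝒜 hAs (by
    rintro A (hA | ⟨_, hA⟩)
    · exact hinf A hA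
    · exact hA)
  have hX' : ∀ᶠ n in (w : Filter ℕ), {j | (n, j) ∈ Xᶜ} ∉ hF v e a := by
    rw [Ultrafilter.eventually_not]
    exact hX
  have key : ∀ c : Set (ℕ × ℕ), (∀ A ∈ 𝒜, (A ∩ c).Infinite) → (X ∩ c)ᶜ ∉ HF v w e a := by
    intro c hc hmem
    obtain ⟨n, hn1, hn2⟩ := (hX'.and (mem_HF.1 hmem)).exists
    obtain ⟨t, ht, m, hm⟩ := mem_hF.1 hn2
    have hinfA : (f (n, ⟨hbase v e t m, t, ht, m, rfl⟩)).Infinite := by
      intro hfin
      apply hn1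
      obtain ⟨m', hm'⟩ := (hfin.image Prod.snd).bddAbove
      refine mem_hF.2 ⟨t, ht, max m (m' + 1), ?_⟩
      rintro j ⟨hj, hj2⟩ hjX
      have h3 : (n, j) ∈ f (n, ⟨hbase v e t m, t, ht, m, rfl⟩) :=
        ⟨rfl, ⟨le_trans (le_max_left _ _) hj, hj2⟩, hjX⟩
      have h4 := hm' (mem_image_of_mem Prod.snd h3)
      have h5 := le_trans (le_max_right m (m' + 1)) hj
      simp only at h4
      omega
    obtain ⟨⟨n', j⟩, ⟨h3, h4, h5⟩, h6⟩ := (hc _ (Or.inr ⟨mem_range_self _, hinfA⟩)).nonempty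
    simp only at h3 h4
    subst h3
    exact hm h4 ⟨h5, h6⟩
  refine ⟨b, fun A hA => hb A (Or.inl hA), key b (fun A hA => (hb A hA).1), ?_⟩
  have := key bᶜ (fun A hA => by rw [← sdiff_eq]; exact (hb A hA).2)
  rwa [← sdiff_eq] at this

theorem pos_hit (h1 : SplitHyp) (h2 : DomHyp) (v w : Ultrafilter ℕ)
    (hw : (w : Filter ℕ) ≤ Filter.cofinite) (e : Om → Set ℕ)
    (a : Om) (𝒴 𝒲 : Set (Set (ℕ × ℕ))) (hY : #𝒴 < 𝔠) (hW : #𝒲 < 𝔠)
    (hpos : ∀ Y ∈ 𝒴, Yᶜ ∉ HF v w e a) (hinf : ∀ A ∈ 𝒲, A.Infinite) :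
    ∃ D : Set (ℕ × ℕ), Dᶜ ∈ HF v w e a ∧ (∀ Y ∈ 𝒴, (D ∩ Y).Infinite) ∧
      ∀ A ∈ 𝒲, (A \ D).Infinite := by
  obtain ⟨D, hD1, hD2, hD3⟩ := exists_hit h1 h2 𝒴 𝒲 hY hW (by
    intro Y hYm k
    by_contra hcon
    push Not at hcon
    apply hpos Y hYm
    rw [mem_HF]
    have h3 : {n | k ≤ n} ∈ (w : Filter ℕ) := by
      apply hw
      rw [Filter.mem_cofinite]
      refine (Set.finite_lt_nat k).subset ?_
      intro j hj
      simpa using hj
    filter_upwards [h3] with n hn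
    apply cofinite_mem_hF
    refine Set.finite_empty.subset ?_
    intro j hj
    exact hj (fun h => hcon n j hn h)) hinf
  refine ⟨D, ?_, hD2, hD3⟩
  rw [mem_HF]
  filter_upwards with n
  apply cofinite_mem_hF
  refine (hD1 n).subset ?_
  intro j hj
  exact not_not.1 hj

/-- The system built from two nonprincipal ultrafilters. -/
noncomputable def mkSys (h1 : SplitHyp) (h2 : DomHyp) (v w : Ultrafilter ℕ)
    (hv : (v : Filter ℕ) ≤ Filter.cofinite) (hw : (w : Filter ℕ) ≤ Filter.cofinite)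
    (e : Om → Set ℕ) (he : Function.Surjective e) : Sys (ℕ × ℕ) Om where
  H := HF v w e
  U := UF v w
  mono := by
    intro a b hab S hS
    rw [mem_HF] at hS ⊢
    filter_upwards [hS] with n hn
    obtain ⟨t, ht, m, hm⟩ := mem_hF.1 hn
    exact mem_hF.2 ⟨t, fun γ hγ => (ht γ hγ).trans hab, m, hm⟩
  le_cof := by
    intro a S hS
    rw [mem_HF]
    filter_upwards with n
    apply cofinite_mem_hF
    rw [Filter.mem_cofinite] at hS
    have : Function.Injective (Prod.mk n : ℕ → ℕ × ℕ) := Prod.mk_right_injective n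
    exact (hS.preimage this.injOn)
  mem_U := by
    intro S
    constructor
    · intro hS
      rw [mem_UF] at hS
      choose g hg using he
      obtain ⟨a, ha⟩ := Om_bdd (fun n => g {j | (n, j) ∈ S})
      refine ⟨a, ?_⟩
      rw [mem_HF]
      filter_upwards [hS] with n hn
      refine mem_hF.2 ⟨{g {j | (n, j) ∈ S}}, ?_, 0, ?_⟩
      · intro γ hγ
        rw [Finset.mem_singleton] at hγ
        rw [hγ]
        exact ha n
      · rintro j ⟨_, hj⟩
        have := hj _ (Finset.mem_singleton_self _) (by rw [hg]; exact hn)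
        rwa [hg] at this
    · rintro ⟨a, ha⟩
      rw [mem_HF] at ha
      rw [mem_UF]
      filter_upwards [ha] with n hn
      obtain ⟨t, ht, m, hm⟩ := mem_hF.1 hn
      exact Filter.mem_of_superset (hbase_mem hv e t m) hm
  split := fun a X hX 𝒲 hs hinf => pos_split h1 v w e a X hX 𝒲 hs hinf
  hit := fun a 𝒴 𝒲 hY hW hpos hinf => pos_hit h1 h2 v w hw e a 𝒴 𝒲 hY hW hpos hinf

theorem exists_sys (h1 : SplitHyp) (h2 : DomHyp) : Nonempty (Sys (ℕ × ℕ) Om) := by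
  have h3 : #(Set ℕ) = #Om := by
    rw [mk_Om]
    simp
  obtain ⟨e⟩ := Cardinal.eq.1 h3
  exact ⟨mkSys h1 h2 (Filter.hyperfilter ℕ) (Filter.hyperfilter ℕ)
    Filter.hyperfilter_le_cofinite Filter.hyperfilter_le_cofinite e.symm e.symm.surjective⟩

end Vale.Agent.P068
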