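import Mathlib

namespace Vale.Agent.P068

open Set Matroid

/-- The pair `(M, N)` of matroids satisfies intersection: some set `J = JM ∪ JN`
(disjoint union), independent in both matroids, has `cl_M(JM) ∪ cl_N(JN) = E`. -/
def SatisfiesIntersection {α : Type*} (M N : Matroid α) : Prop :=
  ∃ JM JN : Set α, Disjoint JM JN ∧ M.Indep (JM ∪ JN) ∧ N.Indep (JM ∪ JN) ∧
    M.closure JM ∪ N.closure JN = M.E

/-- The family `M` of matroids on the ground set `E` has a packing/covering partition
`E = P ∪ C`: there are pairwise disjoint `S i ⊆ P` with `S i` spanning `M i` restricted to `P`,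
and `I i ⊆ C` independent in the contraction of `M i` onto `C` with union `C`. -/
def HasPackingCovering {α Θ : Type*} (M : Θ → Matroid α) (E : Set α) : Prop :=
  ∃ P C : Set α, P ∪ C = E ∧ Disjoint P C ∧ ∃ S I : Θ → Set α,
    (∀ i, S i ⊆ P) ∧ (∀ i, I i ⊆ C) ∧ Pairwise (fun i j => Disjoint (S i) (S j)) ∧
    (∀ i, ((M i) ↾ P).closure (S i) = P) ∧ (∀ i, (((M i)✶ ↾ C)✶).Indep (I i)) ∧
    ⋃ i, I i = C

end Vale.Agent.P068
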