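import Vale.Agent.P068.Interp
import Vale.Agent.P068.Chain

namespace Vale.Agent.P068

open Set Cardinal

/-- A transfinite greedy construction. -/
theorem greedy {T P : Type} (good : Set T → P → T → Prop) (e : Om → P) :
    ∃ F : Om → Set T, (∀ x, (F x).Subsingleton) ∧
      (∀ x, ∀ B ∈ F x, good (⋃ y ∈ Iio x, F y) (e x) B) ∧
      (∀ x, (∃ B, good (⋃ y ∈ Iio x, F y) (e x) B) → (F x).Nonempty) := by
  classical
  let step : Set T → P → Set T := fun 𝓑 p => if h : ∃ B, good 𝓑 p B then {h.choose} else ∅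
  let F : Om → Set T := WellFounded.fix (wellFounded_lt (α := Om))
    (fun x G => step {B | ∃ y, ∃ h : y < x, B ∈ G y h} (e x))
  have hF : ∀ x, F x = step (⋃ y ∈ Iio x, F y) (e x) := by
    intro x
    have h1 : F x = step {B | ∃ y, ∃ _ : y < x, B ∈ F y} (e x) := WellFounded.fix_eq _ _ _
    rw [h1]
    congr 1
    ext B
    simp
  refine ⟨F, ?_, ?_, ?_⟩
  · intro x
    rw [hF]
    simp only [step]
    split_ifs
    · exact subsingleton_singleton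
    · exact subsingleton_empty
  · intro x B hB
    rw [hF] at hB
    simp only [step] at hB
    split_ifs at hB with h
    · rw [mem_singleton_iff] at hB
      rw [hB]
      exact h.choose_spec
    · exact absurd hB (notMem_empty _)
  · intro x h
    rw [hF]
    simp only [step]
    rw [dif_pos h]
    exact singleton_nonempty _

theorem exists_family (Q : Sys (ℕ × ℕ) Om) :
    ∃ 𝓑 : Set (Set (ℕ × ℕ) × Set (ℕ × ℕ)), (∀ B ∈ 𝓑, ¬ Q.HH B ∧ ¬ Q.LL B) ∧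
      (∀ B ∈ 𝓑, ∀ B' ∈ 𝓑, AS B.1 B'.1 → AS B.2 B'.2 → B = B') ∧
      (∀ I Z : Set (ℕ × ℕ) × Set (ℕ × ℕ), I.1 ⊆ Z.1 → I.2 ⊆ Z.2 → ¬ Q.HH I → ¬ Q.LL Z →
        ∃ B ∈ 𝓑, (AS B.1 I.1 ∧ AS B.2 I.2) ∨ (AS Z.1 B.1 ∧ AS Z.2 B.2) ∨
          (I.1 ⊆ B.1 ∧ I.2 ⊆ B.2 ∧ B.1 ⊆ Z.1 ∧ B.2 ⊆ Z.2)) := by
  have h3 : #Om = #((Set (ℕ × ℕ) × Set (ℕ × ℕ)) × (Set (ℕ × ℕ) × Set (ℕ × ℕ))) := by
    rw [mk_Om]
    simp
  obtain ⟨e⟩ := Cardinal.eq.1 h3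
  obtain ⟨F, hF1, hF2, hF3⟩ := greedy (T := Set (ℕ × ℕ) × Set (ℕ × ℕ))
    (P := (Set (ℕ × ℕ) × Set (ℕ × ℕ)) × (Set (ℕ × ℕ) × Set (ℕ × ℕ)))
    (fun 𝓑 p B => ¬ Q.HH B ∧ ¬ Q.LL B ∧ p.1.1 ⊆ B.1 ∧ p.1.2 ⊆ B.2 ∧ B.1 ⊆ p.2.1 ∧ B.2 ⊆ p.2.2 ∧
      ∀ B' ∈ 𝓑, ¬(AS B'.1 B.1 ∧ AS B'.2 B.2) ∧ ¬(AS B.1 B'.1 ∧ AS B.2 B'.2)) e
  have hmid : ∀ x, ∀ B ∈ F x, ¬ Q.HH B ∧ ¬ Q.LL B := fun x B hB =>
    ⟨(hF2 x B hB).1, (hF2 x B hB).2.1⟩
  refine ⟨⋃ x, F x, ?_, ?_, ?_⟩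
  · intro B hB
    obtain ⟨x, hx⟩ := mem_iUnion.1 hB
    exact hmid x B hx
  · intro B hB B' hB' h1 h2
    obtain ⟨x, hx⟩ := mem_iUnion.1 hB
    obtain ⟨y, hy⟩ := mem_iUnion.1 hB'
    rcases lt_trichotomy x y with h | h | h
    · have h4 := (hF2 y B' hy).2.2.2.2.2.2 B (mem_biUnion (show x ∈ Iio y from h) hx)
      exact absurd ⟨h1, h2⟩ h4.1
    · subst h
      exact hF1 x hx hy
    · have h4 := (hF2 x B hx).2.2.2.2.2.2 B' (mem_biUnion (show y ∈ Iio x from h) hy)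
      exact absurd ⟨h1, h2⟩ h4.2
  · intro I Z hIZ1 hIZ2 hI hZ
    let x : Om := e.symm (I, Z)
    have hex : e x = (I, Z) := e.apply_symm_apply _
    have hsmall : #(⋃ y ∈ Iio x, F y : Set (Set (ℕ × ℕ) × Set (ℕ × ℕ))) < 𝔠 := by
      classical
      let g : Iio x → Option (Set (ℕ × ℕ) × Set (ℕ × ℕ)) := fun y =>
        if h : (F y).Nonempty then some h.choose else none
      have hsub : some '' (⋃ y ∈ Iio x, F y) ⊆ range g := by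
        rintro _ ⟨B, hB, rfl⟩
        simp only [mem_iUnion] at hB
        obtain ⟨y, hy, hBy⟩ := hB
        refine ⟨⟨y, hy⟩, ?_⟩
        have hne : (F y).Nonempty := ⟨B, hBy⟩
        simp only [g]
        rw [dif_pos hne]
        congr 1
        exact hF1 y hne.choose_spec hBy
      have h5 : #(some '' (⋃ y ∈ Iio x, F y)) = #(⋃ y ∈ Iio x, F y : Set _) :=
        Cardinal.mk_image_eq (Option.some_injective _)
      rw [← h5]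
      exact lt_of_le_of_lt (Cardinal.mk_le_mk_of_subset hsub)
        (lt_of_le_of_lt Cardinal.mk_range_le (Om_Iio_lt x))
    by_cases h1 : ∃ B' ∈ (⋃ y ∈ Iio x, F y), (AS B'.1 I.1 ∧ AS B'.2 I.2)
    · obtain ⟨B', hB', h⟩ := h1
      simp only [mem_iUnion] at hB'
      obtain ⟨y, _, hBy⟩ := hB'
      exact ⟨B', mem_iUnion.2 ⟨y, hBy⟩, Or.inl h⟩
    by_cases h2 : ∃ B' ∈ (⋃ y ∈ Iio x, F y), (AS Z.1 B'.1 ∧ AS Z.2 B'.2)
    · obtain ⟨B', hB', h⟩ := h2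
      simp only [mem_iUnion] at hB'
      obtain ⟨y, _, hBy⟩ := hB'
      exact ⟨B', mem_iUnion.2 ⟨y, hBy⟩, Or.inr (Or.inl h)⟩
    push Not at h1 h2
    have h6 := Sys.interp (Q := Q) (⋃ y ∈ Iio x, F y) hsmall (by
        intro B hB
        simp only [mem_iUnion] at hB
        obtain ⟨y, _, hBy⟩ := hB
        exact hmid y B hBy) I Z hIZ1 hIZ2 hI hZ (fun B' hB' h => h1 B' hB' h.1 h.2)
        (fun B' hB' h => h2 B' hB' h.1 h.2)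
    obtain ⟨B, hB⟩ := hF3 x (by
      rw [hex]
      obtain ⟨B, h⟩ := h6
      exact ⟨B, h⟩)
    have h7 := hF2 x B hB
    rw [hex] at h7
    exact ⟨B, mem_iUnion.2 ⟨x, hB⟩, Or.inr (Or.inr ⟨h7.2.2.1, h7.2.2.2.1, h7.2.2.2.2.1,
      h7.2.2.2.2.2.1⟩)⟩

end Vale.Agent.P068
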