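import Mathlib

namespace Vale.Agent.P068

open Set

/-- There is a family of fewer than continuum many infinite sets of naturals that is not split
by any single set, i.e. the reaping number is smaller than the continuum. -/
def SmallReaping : Prop :=
  ∃ 𝒜 : Set (Set ℕ), Cardinal.mk 𝒜 < Cardinal.continuum ∧ (∀ A ∈ 𝒜, A.Infinite) ∧
    ∀ b : Set ℕ, ∃ A ∈ 𝒜, (A ∩ b).Finite ∨ (A \ b).Finite

/-- There is a family of fewer than continuum many functions eventually dominating every
function, i.e. the dominating number is smaller than the continuum. -/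
def SmallDominating : Prop :=
  ∃ 𝓕 : Set (ℕ → ℕ), Cardinal.mk 𝓕 < Cardinal.continuum ∧
    ∀ f : ℕ → ℕ, ∃ g ∈ 𝓕, ∃ m, ∀ n, m ≤ n → f n ≤ g n

end Vale.Agent.P068
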