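import Vale.Agent.P068.Sys

namespace Vale.Agent.P068

open Set Cardinal

namespace Sys

variable {W Ω : Type} [LinearOrder Ω] {Q : Sys W Ω}

theorem empty_notMem (a : Ω) : (∅ : Set W) ∉ Q.H a := by
  intro h
  have : (∅ : Set W) ∈ Q.U := le_U a h
  exact Filter.empty_notMem _ this

theorem not_gen_AS {I Z B' B : Set W} (h : Gen I Z B' B) (h1 : ¬ AS B' I) : ¬ AS B' B :=
  fun h2 => h.1 h1 h2

theorem not_gen_AS' {I Z B' B : Set W} (h : Gen I Z B' B) (h1 : ¬ AS Z B') : ¬ AS B B' :=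
  fun h2 => h.2 h1 h2

theorem core (a : Ω) (𝓑 : Set (Set W × Set W)) (hs : #𝓑 < 𝔠) (I Z : Set W × Set W)
    (hIZ2 : I.2 ⊆ Z.2) (hZ2 : Z.2 ∈ Q.H a) (B₁ : Set W)
    (hgen : ∀ B' ∈ 𝓑, Gen I.1 Z.1 B'.1 B₁)
    (hpos : I.2 ∉ Q.H a → ∀ B' ∈ 𝓑, AS B'.1 I.1 → (B'.2 \ I.2)ᶜ ∉ Q.H a)
    (h1 : ∀ B' ∈ 𝓑, ¬(AS B'.1 I.1 ∧ AS B'.2 I.2))
    (h2 : ∀ B' ∈ 𝓑, ¬(AS Z.1 B'.1 ∧ AS Z.2 B'.2)) :
    ∃ B₂ : Set W, I.2 ⊆ B₂ ∧ B₂ ⊆ Z.2 ∧ B₂ ∈ Q.H a ∧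
      ∀ B' ∈ 𝓑, ¬(AS B'.1 B₁ ∧ AS B'.2 B₂) ∧ ¬(AS B₁ B'.1 ∧ AS B₂ B'.2) := by
  have hs2 : #(Prod.snd '' 𝓑) < 𝔠 := lt_of_le_of_lt Cardinal.mk_image_le hs
  by_cases hI2 : I.2 ∈ Q.H a
  · obtain ⟨b, hb, _⟩ := Q.split a univ (by simpa using empty_notMem a)
      (genFam I.2 Z.2 (Prod.snd '' 𝓑)) (genFam_lt hs2) (fun A hA => hA.2)
    refine ⟨I.2 ∪ ((Z.2 \ I.2) ∩ b), subset_union_left, ?_, ?_, ?_⟩
    · rintro x (hx | ⟨⟨hx, _⟩, _⟩)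
      · exact hIZ2 hx
      · exact hx
    · exact Filter.mem_of_superset hI2 subset_union_left
    · intro B' hB'
      have hg := gen_of_split hb (mem_image_of_mem Prod.snd hB')
      constructor
      · rintro ⟨h3, h4⟩
        by_cases h5 : AS B'.1 I.1
        · exact not_gen_AS hg (fun h6 => h1 B' hB' ⟨h5, h6⟩) h4
        · exact not_gen_AS (hgen B' hB') h5 h3
      · rintro ⟨h3, h4⟩
        by_cases h5 : AS Z.1 B'.1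
        · exact not_gen_AS' hg (fun h6 => h2 B' hB' ⟨h5, h6⟩) h4
        · exact not_gen_AS' (hgen B' hB') h5 h3
  · obtain ⟨D, hDa, hDY, hDW⟩ := Q.hit a
      ((fun B' : Set W × Set W => (B'.2 \ I.2) ∩ Z.2) '' {B' | B' ∈ 𝓑 ∧ AS B'.1 I.1})
      (((fun B' : Set W × Set W => Z.2 \ B'.2) '' 𝓑) ∩ {A | A.Infinite})
      (lt_of_le_of_lt Cardinal.mk_image_le
        (lt_of_le_of_lt (Cardinal.mk_le_mk_of_subset (fun x hx => hx.1)) hs))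
      (lt_of_le_of_lt (Cardinal.mk_le_mk_of_subset inter_subset_left)
        (lt_of_le_of_lt Cardinal.mk_image_le hs))
      (by
        rintro _ ⟨B', ⟨hB', hAS⟩, rfl⟩ h
        refine hpos hI2 B' hB' hAS ?_
        filter_upwards [h, hZ2] with x hx hx2 hx3
        exact hx ⟨hx3, hx2⟩)
      (fun A hA => hA.2)
    refine ⟨Z.2 \ (D \ I.2), ?_, sdiff_subset, ?_, ?_⟩
    · intro x hx
      exact ⟨hIZ2 hx, fun h => h.2 hx⟩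
    · filter_upwards [hDa, hZ2] with x hx hx2
      exact ⟨hx2, fun h => hx h.1⟩
    · intro B' hB'
      constructor
      · rintro ⟨h3, h4⟩
        by_cases h5 : AS B'.1 I.1
        · refine hDY _ ⟨B', ⟨hB', h5⟩, rfl⟩ (h4.subset ?_)
          rintro x ⟨hxD, ⟨hx1, hx2⟩, hx3⟩
          exact ⟨hx1, fun h => h.2 ⟨hxD, hx2⟩⟩
        · exact not_gen_AS (hgen B' hB') h5 h3
      · rintro ⟨h3, h4⟩
        by_cases h5 : AS Z.1 B'.1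
        · have h6 : (Z.2 \ B'.2).Infinite := fun h6 => h2 B' hB' ⟨h5, h6⟩
          refine hDW _ ⟨⟨B', hB', rfl⟩, h6⟩ (h4.subset ?_)
          rintro x ⟨⟨hx1, hx2⟩, hx3⟩
          exact ⟨⟨hx1, fun h => hx3 h.1⟩, hx2⟩
        · exact not_gen_AS' (hgen B' hB') h5 h3

theorem mid_of {a : Ω} {B₁ B₂ : Set W} (h1 : B₁ ∉ Q.U) (h2 : B₁ᶜ ∉ Q.H a) (h3 : B₂ ∈ Q.H a) :
    ¬ Q.HH (B₁, B₂) ∧ ¬ Q.LL (B₁, B₂) := by
  constructor
  · rintro ⟨h, _⟩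
    exact h1 h
  · rintro ⟨_, h | h⟩
    · exact h (le_U a h3)
    · rcases h a (Or.inl h3) with h4 | h4
      · exact h1 (le_U a h4)
      · exact h2 h4

/-- The conclusion of the interpolation lemma. -/
def Concl (Q : Sys W Ω) (𝓑 : Set (Set W × Set W)) (I Z : Set W × Set W) : Prop :=
  ∃ B : Set W × Set W, ¬ Q.HH B ∧ ¬ Q.LL B ∧ I.1 ⊆ B.1 ∧ I.2 ⊆ B.2 ∧ B.1 ⊆ Z.1 ∧ B.2 ⊆ Z.2 ∧
    ∀ B' ∈ 𝓑, ¬(AS B'.1 B.1 ∧ AS B'.2 B.2) ∧ ¬(AS B.1 B'.1 ∧ AS B.2 B'.2)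

theorem interp_A (𝓑 : Set (Set W × Set W)) (hs : #𝓑 < 𝔠) (hmid : ∀ B ∈ 𝓑, ¬ Q.HH B ∧ ¬ Q.LL B)
    (I Z : Set W × Set W) (hIZ1 : I.1 ⊆ Z.1) (hIZ2 : I.2 ⊆ Z.2) (hZ : ¬ Q.LL Z)
    (h1 : ∀ B' ∈ 𝓑, ¬(AS B'.1 I.1 ∧ AS B'.2 I.2))
    (h2 : ∀ B' ∈ 𝓑, ¬(AS Z.1 B'.1 ∧ AS Z.2 B'.2)) (hZ1 : Z.1 ∉ Q.U) : Concl Q 𝓑 I Z := by
  have hI1 : I.1 ∉ Q.U := fun h => hZ1 (Filter.mem_of_superset h hIZ1)
  have hs1 : #(Prod.fst '' 𝓑) < 𝔠 := lt_of_le_of_lt Cardinal.mk_image_le hs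
  have hs2 : #(Prod.snd '' 𝓑) < 𝔠 := lt_of_le_of_lt Cardinal.mk_image_le hs
  obtain ⟨hZ2U, a, haZ2, haZ1⟩ : Z.2 ∈ Q.U ∧ ∃ a, Q.D a Z.2 ∧ ¬ Q.D a Z.1 := by
    by_contra hcon
    apply hZ
    refine ⟨hZ1, ?_⟩
    by_cases h : Z.2 ∈ Q.U
    · right
      intro a ha
      by_contra h3
      exact hcon ⟨h, a, ha, h3⟩
    · exact Or.inl h
  have hZ2a : Z.2 ∈ Q.H a := (D_iff_of_mem hZ2U).1 haZ2
  have hZ1a : Z.1ᶜ ∉ Q.H a := fun h => haZ1 (Or.inr h)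
  by_cases hA1 : I.2 ∈ Q.U ∧ ∃ c, Q.D c I.2 ∧ ¬ Q.D c I.1
  · obtain ⟨hI2, c, hc2, hc1⟩ := hA1
    obtain ⟨b1, hb1, _⟩ := Q.split a univ (by simpa using empty_notMem a)
      (genFam I.1 Z.1 (Prod.fst '' 𝓑)) (genFam_lt hs1) (fun A hA => hA.2)
    obtain ⟨b2, hb2, _⟩ := Q.split a univ (by simpa using empty_notMem a)
      (genFam I.2 Z.2 (Prod.snd '' 𝓑)) (genFam_lt hs2) (fun A hA => hA.2)
    have hBZ1 : I.1 ∪ ((Z.1 \ I.1) ∩ b1) ⊆ Z.1 := by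
      rintro x (hx | ⟨⟨hx, _⟩, _⟩)
      · exact hIZ1 hx
      · exact hx
    have hBZ2 : I.2 ∪ ((Z.2 \ I.2) ∩ b2) ⊆ Z.2 := by
      rintro x (hx | ⟨⟨hx, _⟩, _⟩)
      · exact hIZ2 hx
      · exact hx
    have hB1U : I.1 ∪ ((Z.1 \ I.1) ∩ b1) ∉ Q.U := fun h => hZ1 (Filter.mem_of_superset h hBZ1)
    have hmidB := mid_of (Q := Q) (a := c) (B₁ := I.1 ∪ ((Z.1 \ I.1) ∩ b1))
      (B₂ := I.2 ∪ ((Z.2 \ I.2) ∩ b2)) hB1U (by
        intro h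
        apply hc1
        right
        refine Filter.mem_of_superset h ?_
        rw [compl_subset_compl]
        exact subset_union_left)
        (Filter.mem_of_superset ((D_iff_of_mem hI2).1 hc2) subset_union_left)
    refine ⟨(I.1 ∪ ((Z.1 \ I.1) ∩ b1), I.2 ∪ ((Z.2 \ I.2) ∩ b2)), hmidB.1, hmidB.2,
      subset_union_left, subset_union_left, hBZ1, hBZ2, ?_⟩
    intro B' hB'
    have hg1 := gen_of_split hb1 (mem_image_of_mem Prod.fst hB')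
    have hg2 := gen_of_split hb2 (mem_image_of_mem Prod.snd hB')
    constructor
    · rintro ⟨h3, h4⟩
      by_cases h5 : AS B'.1 I.1
      · exact not_gen_AS hg2 (fun h6 => h1 B' hB' ⟨h5, h6⟩) h4
      · exact not_gen_AS hg1 h5 h3
    · rintro ⟨h3, h4⟩
      by_cases h5 : AS Z.1 B'.1
      · exact not_gen_AS' hg2 (fun h6 => h2 B' hB' ⟨h5, h6⟩) h4
      · exact not_gen_AS' hg1 h5 h3
  · obtain ⟨b1, hb1, hb1pos⟩ : ∃ b : Set W, (∀ A ∈ genFam I.1 Z.1 (Prod.fst '' 𝓑),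
        (A ∩ b).Infinite ∧ (A \ b).Infinite) ∧ (I.1 ∪ ((Z.1 \ I.1) ∩ b))ᶜ ∉ Q.H a := by
      by_cases hp : (Z.1 \ I.1)ᶜ ∈ Q.H a
      · obtain ⟨b1, hb1, _⟩ := Q.split a univ (by simpa using empty_notMem a)
          (genFam I.1 Z.1 (Prod.fst '' 𝓑)) (genFam_lt hs1) (fun A hA => hA.2)
        refine ⟨b1, hb1, ?_⟩
        intro h
        apply hZ1a
        filter_upwards [hp, h] with x hx hx2 hx3
        apply hx2
        left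
        by_contra h4
        exact hx ⟨hx3, h4⟩
      · obtain ⟨b1, hb1, h3, _⟩ := Q.split a (Z.1 \ I.1) hp
          (genFam I.1 Z.1 (Prod.fst '' 𝓑)) (genFam_lt hs1) (fun A hA => hA.2)
        refine ⟨b1, hb1, ?_⟩
        intro h
        apply h3
        filter_upwards [h] with x hx hx2
        exact hx (Or.inr hx2)
    have hBZ1 : I.1 ∪ ((Z.1 \ I.1) ∩ b1) ⊆ Z.1 := by
      rintro x (hx | ⟨⟨hx, _⟩, _⟩)
      · exact hIZ1 hx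
      · exact hx
    have hB1U : I.1 ∪ ((Z.1 \ I.1) ∩ b1) ∉ Q.U := fun h => hZ1 (Filter.mem_of_superset h hBZ1)
    obtain ⟨B₂, hB₂1, hB₂2, hB₂3, hB₂4⟩ := core a 𝓑 hs I Z hIZ2 hZ2a (I.1 ∪ ((Z.1 \ I.1) ∩ b1))
      (fun B' hB' => gen_of_split hb1 (mem_image_of_mem Prod.fst hB')) (by
        intro hI2 B' hB' hAS hY
        have hB'1 : B'.1 ∉ Q.U := fun h => hI1 (memU_AS hAS h)
        obtain ⟨hB'2, c, hc2, hc1⟩ : B'.2 ∈ Q.U ∧ ∃ c, Q.D c B'.2 ∧ ¬ Q.D c B'.1 := by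
          by_contra hcon
          apply (hmid B' hB').2
          refine ⟨hB'1, ?_⟩
          by_cases h : B'.2 ∈ Q.U
          · right
            intro c hc
            by_contra h3
            exact hcon ⟨h, c, hc, h3⟩
          · exact Or.inl h
        have hc3 : B'.2 ∈ Q.H c := (D_iff_of_mem hB'2).1 hc2
        have hc4 : ¬ Q.D c I.1 := fun h => hc1 (D_down hAS hI1 h)
        rcases le_total c a with hca | hca
        · apply hI2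
          filter_upwards [memH_mono hca hc3, hY] with x hx hx2
          by_contra h
          exact hx2 ⟨hx, h⟩
        · have hI2c : I.2 ∈ Q.H c := by
            filter_upwards [hc3, memH_mono hca hY] with x hx hx2
            by_contra h
            exact hx2 ⟨hx, h⟩
          exact hA1 ⟨le_U c hI2c, c, Or.inl hI2c, hc4⟩) h1 h2
    have hmidB := mid_of (Q := Q) hB1U hb1pos hB₂3
    exact ⟨(_, B₂), hmidB.1, hmidB.2, subset_union_left, hB₂1, hBZ1, hB₂2, hB₂4⟩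

theorem interp_C1 (𝓑 : Set (Set W × Set W)) (hs : #𝓑 < 𝔠) (hmid : ∀ B ∈ 𝓑, ¬ Q.HH B ∧ ¬ Q.LL B)
    (I Z : Set W × Set W) (hIZ1 : I.1 ⊆ Z.1) (hIZ2 : I.2 ⊆ Z.2)
    (h1 : ∀ B' ∈ 𝓑, ¬(AS B'.1 I.1 ∧ AS B'.2 I.2))
    (h2 : ∀ B' ∈ 𝓑, ¬(AS Z.1 B'.1 ∧ AS Z.2 B'.2)) (hI1 : I.1 ∉ Q.U) (hZ1 : Z.1 ∈ Q.U)
    (hZ2 : Z.2 ∈ Q.U) : Concl Q 𝓑 I Z := by
  have hs1 : #(Prod.fst '' 𝓑) < 𝔠 := lt_of_le_of_lt Cardinal.mk_image_le hs
  obtain ⟨a, haZ2, haI1⟩ : ∃ a, Z.2 ∈ Q.H a ∧ Q.D a I.1 := by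
    obtain ⟨a1, ha1⟩ := Q.mem_U.1 hZ2
    obtain ⟨a2, ha2⟩ := Q.exists_D I.1
    exact ⟨max a1 a2, memH_mono (le_max_left _ _) ha1, D_mono (le_max_right _ _) ha2⟩
  have hp : (Z.1 \ I.1)ᶜ ∉ Q.H a := by
    intro h
    apply compl_mem_U.1 (le_U a h)
    exact Filter.inter_mem hZ1 (compl_mem_U.2 hI1)
  obtain ⟨b1, hb1, h3, h4⟩ := Q.split a (Z.1 \ I.1) hp
    (genFam I.1 Z.1 (Prod.fst '' 𝓑)) (genFam_lt hs1) (fun A hA => hA.2)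
  obtain ⟨B₁, hIB, hBZ, hgen, hB1U, hB1a⟩ : ∃ B₁ : Set W, I.1 ⊆ B₁ ∧ B₁ ⊆ Z.1 ∧
      (∀ B' ∈ 𝓑, Gen I.1 Z.1 B'.1 B₁) ∧ B₁ ∉ Q.U ∧ B₁ᶜ ∉ Q.H a := by
    by_cases hU : ((Z.1 \ I.1) ∩ b1) ∈ Q.U
    · refine ⟨I.1 ∪ ((Z.1 \ I.1) \ b1), subset_union_left, ?_,
        fun B' hB' => gen_of_split' hb1 (mem_image_of_mem Prod.fst hB'), ?_, ?_⟩
      · rintro x (hx | ⟨⟨hx, _⟩, _⟩)
        · exact hIZ1 hx
        · exact hx
      · rw [Ultrafilter.union_mem_iff]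
        rintro (h | h)
        · exact hI1 h
        · have : (∅ : Set W) ∈ Q.U := by
            filter_upwards [h, hU] with x hx hx2
            exact hx.2 hx2.2
          exact Filter.empty_notMem _ this
      · intro h
        apply h4
        filter_upwards [h] with x hx hx2
        exact hx (Or.inr hx2)
    · refine ⟨I.1 ∪ ((Z.1 \ I.1) ∩ b1), subset_union_left, ?_,
        fun B' hB' => gen_of_split hb1 (mem_image_of_mem Prod.fst hB'), ?_, ?_⟩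
      · rintro x (hx | ⟨⟨hx, _⟩, _⟩)
        · exact hIZ1 hx
        · exact hx
      · rw [Ultrafilter.union_mem_iff]
        rintro (h | h)
        · exact hI1 h
        · exact hU h
      · intro h
        apply h3
        filter_upwards [h] with x hx hx2
        exact hx (Or.inr hx2)
  obtain ⟨B₂, hB₂1, hB₂2, hB₂3, hB₂4⟩ := core a 𝓑 hs I Z hIZ2 haZ2 B₁ hgen (by
        intro hI2 B' hB' hAS hY
        have hB'1 : B'.1 ∉ Q.U := fun h => hI1 (memU_AS hAS h)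
        obtain ⟨hB'2, c, hc2, hc1⟩ : B'.2 ∈ Q.U ∧ ∃ c, Q.D c B'.2 ∧ ¬ Q.D c B'.1 := by
          by_contra hcon
          apply (hmid B' hB').2
          refine ⟨hB'1, ?_⟩
          by_cases h : B'.2 ∈ Q.U
          · right
            intro c hc
            by_contra h3
            exact hcon ⟨h, c, hc, h3⟩
          · exact Or.inl h
        have hc3 : B'.2 ∈ Q.H c := (D_iff_of_mem hB'2).1 hc2
        have hc4 : ¬ Q.D c I.1 := fun h => hc1 (D_down hAS hI1 h)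
        rcases le_total c a with hca | hca
        · apply hI2
          filter_upwards [memH_mono hca hc3, hY] with x hx hx2
          by_contra h
          exact hx2 ⟨hx, h⟩
        · exact hc4 (D_mono hca haI1)) h1 h2
  have hmidB := mid_of (Q := Q) hB1U hB1a hB₂3
  exact ⟨(B₁, B₂), hmidB.1, hmidB.2, hIB, hB₂1, hBZ, hB₂2, hB₂4⟩

/-- Complement of a pair. -/
def cp (X : Set W × Set W) : Set W × Set W := (X.1ᶜ, X.2ᶜ)

theorem cp_cp (X : Set W × Set W) : cp (cp X) = X := by simp [cp]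

theorem AS_compl_iff {A B : Set W} : AS Aᶜ Bᶜ ↔ AS B A :=
  ⟨fun h => by simpa using h.compl, AS.compl⟩

theorem concl_compl {𝓑 : Set (Set W × Set W)} {I Z : Set W × Set W}
    (h : Concl Q (cp '' 𝓑) (cp Z) (cp I)) : Concl Q 𝓑 I Z := by
  obtain ⟨B, h1, h2, h3, h4, h5, h6, h7⟩ := h
  refine ⟨cp B, ?_, ?_, ?_, ?_, ?_, ?_, ?_⟩
  · intro h
    exact h2 (HH_compl.1 h)
  · intro h
    exact h1 (LL_compl.1 h)
  · exact subset_compl_comm.1 h5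
  · exact subset_compl_comm.1 h6
  · exact compl_subset_comm.1 h3
  · exact compl_subset_comm.1 h4
  · intro B' hB'
    obtain ⟨h8, h9⟩ := h7 _ (mem_image_of_mem cp hB')
    constructor
    · rintro ⟨h10, h11⟩
      apply h9
      constructor
      · simpa [cp] using h10.compl
      · simpa [cp] using h11.compl
    · rintro ⟨h10, h11⟩
      apply h8
      constructor
      · simpa [cp] using h10.compl
      · simpa [cp] using h11.compl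

theorem interp (𝓑 : Set (Set W × Set W)) (hs : #𝓑 < 𝔠) (hmid : ∀ B ∈ 𝓑, ¬ Q.HH B ∧ ¬ Q.LL B)
    (I Z : Set W × Set W) (hIZ1 : I.1 ⊆ Z.1) (hIZ2 : I.2 ⊆ Z.2) (hI : ¬ Q.HH I) (hZ : ¬ Q.LL Z)
    (h1 : ∀ B' ∈ 𝓑, ¬(AS B'.1 I.1 ∧ AS B'.2 I.2))
    (h2 : ∀ B' ∈ 𝓑, ¬(AS Z.1 B'.1 ∧ AS Z.2 B'.2)) : Concl Q 𝓑 I Z := by
  have hs' : #(cp '' 𝓑) < 𝔠 := lt_of_le_of_lt Cardinal.mk_image_le hs
  have hmid' : ∀ B ∈ cp '' 𝓑, ¬ Q.HH B ∧ ¬ Q.LL B := by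
    rintro _ ⟨B, hB, rfl⟩
    exact ⟨fun h => (hmid B hB).2 (HH_compl.1 h), fun h => (hmid B hB).1 (LL_compl.1 h)⟩
  have h1' : ∀ B' ∈ cp '' 𝓑, ¬(AS B'.1 (cp Z).1 ∧ AS B'.2 (cp Z).2) := by
    rintro _ ⟨B, hB, rfl⟩ ⟨h3, h4⟩
    exact h2 B hB ⟨AS_compl_iff.1 h3, AS_compl_iff.1 h4⟩
  have h2' : ∀ B' ∈ cp '' 𝓑, ¬(AS (cp I).1 B'.1 ∧ AS (cp I).2 B'.2) := by
    rintro _ ⟨B, hB, rfl⟩ ⟨h3, h4⟩
    exact h1 B hB ⟨AS_compl_iff.1 h3, AS_compl_iff.1 h4⟩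
  have hI' : ¬ Q.LL (cp I) := fun h => hI (LL_compl.1 h)
  by_cases hZ1 : Z.1 ∈ Q.U
  · by_cases hI1 : I.1 ∈ Q.U
    · apply concl_compl
      refine interp_A (cp '' 𝓑) hs' hmid' (cp Z) (cp I) (compl_subset_compl.2 hIZ1)
        (compl_subset_compl.2 hIZ2) hI' h1' h2' ?_
      exact fun h => compl_mem_U.1 h hI1
    · by_cases hZ2 : Z.2 ∈ Q.U
      · exact interp_C1 𝓑 hs hmid I Z hIZ1 hIZ2 h1 h2 hI1 hZ1 hZ2
      · have hI2 : I.2 ∉ Q.U := fun h => hZ2 (Filter.mem_of_superset h hIZ2)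
        apply concl_compl
        refine interp_C1 (cp '' 𝓑) hs' hmid' (cp Z) (cp I) (compl_subset_compl.2 hIZ1)
          (compl_subset_compl.2 hIZ2) h1' h2' ?_ ?_ ?_
        · exact fun h => compl_mem_U.1 h hZ1
        · exact compl_mem_U.2 hI1
        · exact compl_mem_U.2 hI2
  · exact interp_A 𝓑 hs hmid I Z hIZ1 hIZ2 hZ h1 h2 hZ1

end Sys

end Vale.Agent.P068
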