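import Vale.Agent.P068.Defs

namespace Vale.Agent.P068

open Set Matroid

theorem inter_of_pc {α : Type*} (M N : Matroid α) (hM : M.E = univ) (hN : N.E = univ)
    (h : HasPackingCovering (fun b : Bool => bif b then N✶ else M) univ) :
    SatisfiesIntersection M N := by
  obtain ⟨P, C, hPC, hdisj, S, I, hSP, hIC, hSd, hS, hI, hIU⟩ := h
  have hS0 := hS false
  have hS1 := hS true
  have hI0 := hI false
  have hI1 := hI true
  simp only [cond_false, cond_true, dual_dual] at hS0 hS1 hI0 hI1
  have hCP : C = univ \ P := by
    ext x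
    constructor
    · intro hx
      exact ⟨mem_univ x, fun h => (Set.disjoint_left.1 hdisj) h hx⟩
    · rintro ⟨_, hx⟩
      have : x ∈ P ∪ C := hPC ▸ mem_univ x
      exact this.resolve_left hx
  have hPC' : P = univ \ C := by
    rw [hCP]
    simp
  -- a base of `P` in `M`
  obtain ⟨JM, hJM⟩ := M.exists_isBasis (S false) (by rw [hM]; exact subset_univ _)
  have hPM : P ⊆ M.closure JM := by
    rw [hJM.closure_eq_closure]
    intro x hx
    rw [← hS0, M.restrict_closure_eq (hSP false) (by rw [hM]; exact subset_univ _)] at hx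
    exact hx.1
  have hJMP : M.IsBasis JM P :=
    hJM.indep.isBasis_of_subset_of_subset_closure (hJM.subset.trans (hSP false)) hPM
  -- a base of `C` in `N`
  obtain ⟨JN, hJN⟩ := N.exists_isBasis (C \ I true) (by rw [hN]; exact subset_univ _)
  have hCN : C ⊆ N.closure JN := by
    rw [hJN.closure_eq_closure]
    have h1 : (N ↾ C).Coindep (I true) := hI1
    have h2 : (N ↾ C).closure (C \ I true) = C := h1.compl_spanning.closure_eq
    intro x hx
    rw [← h2, N.restrict_closure_eq sdiff_subset (by rw [hN]; exact subset_univ _)] at hx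
    exact hx.1
  have hJNC : N.IsBasis JN C :=
    hJN.indep.isBasis_of_subset_of_subset_closure (hJN.subset.trans sdiff_subset) hCN
  have hJNI : JN ⊆ I false := by
    intro x hx
    obtain ⟨hxC, hxI⟩ := hJN.subset hx
    rw [← hIU] at hxC
    obtain ⟨b, hb⟩ := mem_iUnion.1 hxC
    cases b
    · exact hb
    · exact absurd hb hxI
  have hMI : M.Indep (JM ∪ JN) := by
    have h1 : (M ／ P).Indep (I false) := by
      have : M ／ P = (M✶ ↾ C)✶ := by
        rw [contract, delete_eq_restrict, dual_ground, hM, ← hCP]
      rw [this]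
      exact hI0
    rw [hJMP.contract_indep_iff] at h1
    exact h1.1.subset (by
      rw [union_comm]
      exact union_subset_union_left _ hJNI)
  have hNI : N.Indep (JM ∪ JN) := by
    have h1 : (N ／ C).Indep (P \ S true) := by
      have h2 : N ／ C = (N✶ ↾ P)✶ := by
        rw [contract, delete_eq_restrict, dual_ground, hN, ← hPC']
      rw [h2]
      have h3 : (N✶ ↾ P).Spanning (S true) := by
        rw [spanning_iff_closure_eq (hSP true)]
        exact hS1
      exact h3.compl_coindep
    rw [hJNC.contract_indep_iff] at h1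
    refine h1.1.subset (union_subset_union_left _ ?_)
    intro x hx
    refine ⟨hSP false (hJM.subset hx), fun h => ?_⟩
    exact (Set.disjoint_left.1 (hSd (by decide : (false : Bool) ≠ true))) (hJM.subset hx) h
  refine ⟨JM, JN, ?_, hMI, hNI, ?_⟩
  · rw [Set.disjoint_left]
    intro x hx hx2
    exact (Set.disjoint_left.1 hdisj) (hJMP.subset hx) (hJNC.subset hx2)
  · rw [hM]
    refine Subset.antisymm (subset_univ _) ?_
    rw [← hPC]
    exact union_subset_union hPM hCN

end Vale.Agent.P068
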