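import Mathlib

namespace Vale.Agent.P068

open Set Cardinal

/-- Injective choice from a sequence of infinite sets. -/
theorem exists_inj_choice {α : Type*} (A : ℕ → Set α) (hA : ∀ n, (A n).Infinite) :
    ∃ f : ℕ → α, Function.Injective f ∧ ∀ n, f n ∈ A n := by
  classical
  have key : ∀ n (s : Finset α), ∃ x ∈ A n, x ∉ s := fun n s => (hA n).exists_notMem_finset s
  choose g hg hgs using key
  let F : ℕ → Finset α := fun n => Nat.rec ∅ (fun k s => insert (g k s) s) n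
  have hF : ∀ n, F (n + 1) = insert (g n (F n)) (F n) := fun n => rfl
  have hmono : ∀ m n, m ≤ n → F m ⊆ F n := by
    intro m n h
    induction h with
    | refl => exact Finset.Subset.refl _
    | step _ ih => rw [hF]; exact ih.trans (Finset.subset_insert _ _)
  have hlt : ∀ m n, m < n → g m (F m) ∈ F n := by
    intro m n h
    have : g m (F m) ∈ F (m + 1) := by rw [hF]; exact Finset.mem_insert_self _ _
    exact hmono _ _ h this
  refine ⟨fun n => g n (F n), ?_, fun n => hg n _⟩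
  intro m n hmn
  simp only at hmn
  rcases lt_trichotomy m n with h | h | h
  · exact absurd (hmn ▸ hlt m n h) (hgs n (F n))
  · exact h
  · exact absurd (hmn.symm ▸ hlt n m h) (hgs m (F m))

/-- Countably many infinite sets can be split simultaneously. -/
theorem exists_split_countable {α : Type*} (𝒜 : Set (Set α)) (hc : 𝒜.Countable)
    (hA : ∀ A ∈ 𝒜, A.Infinite) :
    ∃ b : Set α, ∀ A ∈ 𝒜, (A ∩ b).Infinite ∧ (A \ b).Infinite := by
  classical
  rcases 𝒜.eq_empty_or_nonempty with h0 | hne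
  · exact ⟨∅, by simp [h0]⟩
  obtain ⟨e, he⟩ := hc.exists_eq_range hne
  have hinf : ∀ n, (e n).Infinite := fun n => hA _ (he ▸ mem_range_self n)
  obtain ⟨f, hf, hfe⟩ := exists_inj_choice (fun n => e (Nat.unpair n).1) (fun n => hinf _)
  refine ⟨{x | ∃ m t, x = f (Nat.pair m (2 * t))}, ?_⟩
  intro A hAm
  rw [he] at hAm
  obtain ⟨m, rfl⟩ := hAm
  constructor
  · have : Function.Injective (fun t => f (Nat.pair m (2 * t))) := by
      intro s t hst
      have := hf hst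
      have := (Nat.pair_eq_pair.1 this).2
      omega
    refine (Set.infinite_range_of_injective this).mono ?_
    rintro _ ⟨t, rfl⟩
    refine ⟨?_, m, t, rfl⟩
    have := hfe (Nat.pair m (2 * t))
    simpa using this
  · have : Function.Injective (fun t => f (Nat.pair m (2 * t + 1))) := by
      intro s t hst
      have := hf hst
      have := (Nat.pair_eq_pair.1 this).2
      omega
    refine (Set.infinite_range_of_injective this).mono ?_
    rintro _ ⟨t, rfl⟩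
    refine ⟨?_, ?_⟩
    · have := hfe (Nat.pair m (2 * t + 1))
      simpa using this
    · rintro ⟨m', t', h⟩
      have := (Nat.pair_eq_pair.1 (hf h)).2
      omega

/-- Every family of fewer than continuum many infinite sets of naturals is split by one set. -/
def SplitHyp : Prop :=
  ∀ 𝒜 : Set (Set ℕ), #𝒜 < 𝔠 → (∀ A ∈ 𝒜, A.Infinite) →
    ∃ b : Set ℕ, ∀ A ∈ 𝒜, (A ∩ b).Infinite ∧ (A \ b).Infinite

/-- No family of fewer than continuum many functions is dominating. -/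
def DomHyp : Prop :=
  ∀ 𝓕 : Set (ℕ → ℕ), #𝓕 < 𝔠 → ∃ f : ℕ → ℕ, ∀ g ∈ 𝓕, ∀ m, ∃ n, m ≤ n ∧ g n < f n

theorem countable_of_lt (hCH : ℵ₁ = (𝔠 : Cardinal.{0})) {α : Type} {s : Set α} (h : #s < 𝔠) : s.Countable := by
  rw [← hCH] at h
  exact (Cardinal.countable_iff_lt_aleph_one s).2 h

theorem splitHyp_of_CH (hCH : ℵ₁ = (𝔠 : Cardinal.{0})) : SplitHyp := fun 𝒜 h hA =>
  exists_split_countable 𝒜 (countable_of_lt hCH h) hA

theorem domHyp_of_CH (hCH : ℵ₁ = (𝔠 : Cardinal.{0})) : DomHyp := by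
  intro 𝓕 h
  have hc := countable_of_lt hCH h
  rcases 𝓕.eq_empty_or_nonempty with h0 | hne
  · exact ⟨fun _ => 0, by simp [h0]⟩
  obtain ⟨e, he⟩ := hc.exists_eq_range hne
  refine ⟨fun n => (Finset.range (n + 1)).sup (fun k => e k n) + 1, ?_⟩
  intro g hg m
  rw [he] at hg
  obtain ⟨k, rfl⟩ := hg
  refine ⟨max m k, le_max_left _ _, ?_⟩
  have : e k (max m k) ≤ (Finset.range (max m k + 1)).sup (fun j => e j (max m k)) := by
    refine Finset.le_sup (f := fun j => e j (max m k)) ?_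
    simp
  exact Nat.lt_succ_of_le this

/-- Transfer of splitting to a countable type. -/
theorem SplitHyp.split (h : SplitHyp) {α : Type} [Countable α] (𝒜 : Set (Set α)) (hs : #𝒜 < 𝔠)
    (hA : ∀ A ∈ 𝒜, A.Infinite) :
    ∃ b : Set α, ∀ A ∈ 𝒜, (A ∩ b).Infinite ∧ (A \ b).Infinite := by
  obtain ⟨e, he⟩ := exists_injective_nat α
  obtain ⟨b, hb⟩ := h ((fun A => e '' A) '' 𝒜) (lt_of_le_of_lt Cardinal.mk_image_le hs) (by
    rintro _ ⟨A, hAm, rfl⟩
    exact (hA A hAm).image he.injOn)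
  refine ⟨e ⁻¹' b, ?_⟩
  intro A hAm
  obtain ⟨h1, h2⟩ := hb _ ⟨A, hAm, rfl⟩
  simp only at h1 h2
  constructor
  · rw [← image_inter_preimage] at h1
    exact h1.of_image e
  · have : e '' A \ b = e '' (A \ e ⁻¹' b) := by
      ext x
      constructor
      · rintro ⟨⟨y, hy, rfl⟩, hx⟩
        exact ⟨y, ⟨hy, hx⟩, rfl⟩
      · rintro ⟨y, ⟨hy, hx⟩, rfl⟩
        exact ⟨⟨y, hy, rfl⟩, hx⟩
    rw [this] at h2
    exact h2.of_image e

/-- The diagonal hitting lemma. -/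
theorem exists_hit (h1 : SplitHyp) (h2 : DomHyp) (𝒴 𝒲 : Set (Set (ℕ × ℕ))) (hY : #𝒴 < 𝔠)
    (hW : #𝒲 < 𝔠) (hYc : ∀ Y ∈ 𝒴, ∀ k, ∃ n j, k ≤ n ∧ (n, j) ∈ Y)
    (hWi : ∀ A ∈ 𝒲, A.Infinite) :
    ∃ D : Set (ℕ × ℕ), (∀ n, {j | (n, j) ∈ D}.Finite) ∧ (∀ Y ∈ 𝒴, (D ∩ Y).Infinite) ∧
      ∀ A ∈ 𝒲, (A \ D).Infinite := by
  classical
  have hch : ∀ Y : 𝒴, ∃ nj : ℕ → ℕ × ℕ, ∀ k, k ≤ (nj k).1 ∧ nj k ∈ Y.1 := by
    intro Y
    choose n j h using hYc Y.1 Y.2
    exact ⟨fun k => (n k, j k), fun k => h k⟩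
  choose nj hnj using hch
  obtain ⟨F, hF⟩ := h2 (range (fun Y : 𝒴 => fun k => (nj Y k).2))
    (lt_of_le_of_lt Cardinal.mk_range_le hY)
  let f : ℕ → ℕ := fun n => (Finset.range (n + 1)).sup F
  have hf : ∀ k n, k ≤ n → F k ≤ f n := by
    intro k n hkn
    exact Finset.le_sup (f := F) (by simp; omega)
  let D' : Set (ℕ × ℕ) := {p | p.2 < f p.1}
  have hD'Y : ∀ Y ∈ 𝒴, (D' ∩ Y).Infinite := by
    intro Y hYm hfin
    have hb := (hfin.image Prod.fst).bddAbove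
    obtain ⟨m, hm⟩ := hb
    obtain ⟨k, hk, hlt⟩ := hF _ (mem_range_self (⟨Y, hYm⟩ : 𝒴)) (m + 1)
    obtain ⟨h3, h4⟩ := hnj ⟨Y, hYm⟩ k
    have h5 : nj ⟨Y, hYm⟩ k ∈ D' ∩ Y := by
      refine ⟨?_, h4⟩
      show (nj ⟨Y, hYm⟩ k).2 < f (nj ⟨Y, hYm⟩ k).1
      exact lt_of_lt_of_le hlt (hf _ _ h3)
    have h6 := hm (mem_image_of_mem Prod.fst h5)
    omega
  let 𝒜 : Set (Set (ℕ × ℕ)) := (fun Y => D' ∩ Y) '' 𝒴 ∪ (fun A => A ∩ D') '' 𝒲 ∩ {A | A.Infinite}
  have hAs : #𝒜 < 𝔠 := by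
    refine lt_of_le_of_lt (Cardinal.mk_union_le _ _) ?_
    refine Cardinal.add_lt_of_lt Cardinal.aleph0_le_continuum ?_ ?_
    · exact lt_of_le_of_lt Cardinal.mk_image_le hY
    · refine lt_of_le_of_lt (Cardinal.mk_le_mk_of_subset inter_subset_left) ?_
      exact lt_of_le_of_lt Cardinal.mk_image_le hW
  obtain ⟨b, hb⟩ := h1.split 𝒜 hAs (by
    rintro A (⟨Y, hYm, rfl⟩ | ⟨_, hA⟩)
    · exact hD'Y Y hYm
    · exact hA)
  refine ⟨D' ∩ b, ?_, ?_, ?_⟩
  · intro n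
    refine (Set.finite_lt_nat (f n)).subset ?_
    rintro j ⟨hj, _⟩
    exact hj
  · intro Y hYm
    have := (hb (D' ∩ Y) (Or.inl ⟨Y, hYm, rfl⟩)).1
    refine this.mono ?_
    rintro x ⟨⟨h1, h2⟩, h3⟩
    exact ⟨⟨h1, h3⟩, h2⟩
  · intro A hAm
    by_cases hfin : (A ∩ D').Finite
    · have : (A \ D').Infinite := by
        intro h
        apply hWi A hAm
        rw [← inter_union_sdiff A D']
        exact hfin.union h
      refine this.mono ?_
      rintro x ⟨h1, h2⟩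
      exact ⟨h1, fun h => h2 h.1⟩
    · have := (hb (A ∩ D') (Or.inr ⟨⟨A, hAm, rfl⟩, hfin⟩)).2
      refine this.mono ?_
      rintro x ⟨⟨h1, h2⟩, h3⟩
      exact ⟨h1, fun h => h3 h.2⟩

end Vale.Agent.P068
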