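import Vale.Agent.P068.Unif
import Vale.Agent.P068.Family
import Vale.Agent.P068.PC

namespace Vale.Agent.P068

open Set

theorem AS_sum_iff {W : Type} {X Y : Set (W ⊕ W)} :
    AS X Y ↔ AS (Sum.inl ⁻¹' X) (Sum.inl ⁻¹' Y) ∧ AS (Sum.inr ⁻¹' X) (Sum.inr ⁻¹' Y) := by
  constructor
  · intro h
    have h' : (X \ Y).Finite := h
    exact ⟨h'.preimage (f := Sum.inl) Sum.inl_injective.injOn,
      h'.preimage (f := Sum.inr) Sum.inr_injective.injOn⟩
  · rintro ⟨h1, h2⟩
    refine ((h1.image Sum.inl).union (h2.image Sum.inr)).subset ?_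
    rintro (x | x) hx
    · exact Or.inl ⟨x, hx, rfl⟩
    · exact Or.inr ⟨x, hx, rfl⟩

/-- Pair of halves of a set. -/
def halves {W : Type} (X : Set (W ⊕ W)) : Set W × Set W := (Sum.inl ⁻¹' X, Sum.inr ⁻¹' X)

/-- The data of the uniform matroid obtained from a system. -/
noncomputable def mkData (Q : Sys (ℕ × ℕ) Om) : Data ((ℕ × ℕ) ⊕ (ℕ × ℕ)) where
  HH := fun X => Q.HH (halves X)
  LL := fun X => Q.LL (halves X)
  HH_up := fun h => Sys.HH_up (AS_sum_iff.1 h).1 (AS_sum_iff.1 h).2
  LL_down := fun h => Sys.LL_down (AS_sum_iff.1 h).1 (AS_sum_iff.1 h).2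
  HH_univ := Sys.HH_univ
  LL_empty := Sys.LL_empty
  disj := fun X h1 h2 => h2.1 h1.1
  BB := halves ⁻¹' (exists_family Q).choose
  mid := fun B hB => (exists_family Q).choose_spec.1 _ hB
  anti := by
    intro B hB B' hB' h
    have := (exists_family Q).choose_spec.2.1 _ hB _ hB' (AS_sum_iff.1 h).1 (AS_sum_iff.1 h).2
    have h1 : Sum.inl ⁻¹' B = Sum.inl ⁻¹' B' := congrArg Prod.fst this
    have h2 : Sum.inr ⁻¹' B = Sum.inr ⁻¹' B' := congrArg Prod.snd this
    ext (x | x)
    · exact iff_of_eq (congrFun h1 x)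
    · exact iff_of_eq (congrFun h2 x)
  interp := by
    intro I Z hIZ hI hZ
    obtain ⟨B, hB, h⟩ := (exists_family Q).choose_spec.2.2 (halves I) (halves Z)
      (preimage_mono hIZ) (preimage_mono hIZ) hI hZ
    have h3 : halves (Sum.inl '' B.1 ∪ Sum.inr '' B.2) = B := by
      ext x
      · simp [halves]
      · simp [halves]
    refine ⟨Sum.inl '' B.1 ∪ Sum.inr '' B.2, ?_, ?_⟩
    · rw [mem_preimage, h3]
      exact hB
    · have h4 : Sum.inl ⁻¹' (Sum.inl '' B.1 ∪ Sum.inr '' B.2) = B.1 := congrArg Prod.fst h3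
      have h5 : Sum.inr ⁻¹' (Sum.inl '' B.1 ∪ Sum.inr '' B.2) = B.2 := congrArg Prod.snd h3
      rcases h with h | h | h
      · left
        rw [AS_sum_iff, h4, h5]
        exact h
      · right; left
        rw [AS_sum_iff, h4, h5]
        exact h
      · right; right
        constructor
        · rintro (x | x) hx
          · exact Or.inl ⟨x, h.1 hx, rfl⟩
          · exact Or.inr ⟨x, h.2.1 hx, rfl⟩
        · rintro _ (⟨x, hx, rfl⟩ | ⟨x, hx, rfl⟩)
          · exact h.2.2.1 hx
          · exact h.2.2.2 hx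

/-- The one-ray argument. -/
theorem ray_aux {W Ω : Type} [LinearOrder Ω] [WellFoundedLT Ω] (Q : Sys W Ω) (S : ℕ → Set W)
    (full : ℕ → Prop)
    (h1 : ∀ n, ¬ Q.HH (S n, S (n + 1))) (h2 : ∀ n, full n → ¬ Q.LL (S n, S (n + 1)))
    (h3 : ∀ n, full (n + 1) ↔ ¬ full n) (a : Ω) :
    ∀ n, Q.D a (S n) → ¬ ((S n ∈ Q.U ∧ ¬ full n) ∨ (S n ∉ Q.U ∧ full n)) := by
  induction a using WellFoundedLT.induction with
  | _ a ih =>
    rintro n hD (⟨hU, hf⟩ | ⟨hU, hf⟩)
    · obtain ⟨hU', b, hb1, hb2⟩ : S (n + 1) ∉ Q.U ∧ ∃ b, Q.D b (S (n + 1)) ∧ ¬ Q.D b (S n) := by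
        by_contra hcon
        apply h1 n
        refine ⟨hU, ?_⟩
        by_cases h : S (n + 1) ∈ Q.U
        · exact Or.inl h
        · right
          intro b hb
          by_contra h4
          exact hcon ⟨h, b, hb, h4⟩
      have hba : b < a := by
        by_contra h
        exact hb2 (Sys.D_mono (not_lt.1 h) hD)
      exact ih b hba (n + 1) hb1 (Or.inr ⟨hU', (h3 n).2 hf⟩)
    · obtain ⟨hU', b, hb1, hb2⟩ : S (n + 1) ∈ Q.U ∧ ∃ b, Q.D b (S (n + 1)) ∧ ¬ Q.D b (S n) := by
        by_contra hcon
        apply h2 n hf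
        refine ⟨hU, ?_⟩
        by_cases h : S (n + 1) ∈ Q.U
        · right
          intro b hb
          by_contra h4
          exact hcon ⟨h, b, hb, h4⟩
        · exact Or.inl h
      have hba : b < a := by
        by_contra h
        exact hb2 (Sys.D_mono (not_lt.1 h) hD)
      exact ih b hba (n + 1) hb1 (Or.inl ⟨hU', fun h => (h3 n).1 h hf⟩)

theorem ray {W Ω : Type} [LinearOrder Ω] [WellFoundedLT Ω] (Q : Sys W Ω) (S : ℕ → Set W)
    (full : ℕ → Prop)
    (h1 : ∀ n, ¬ Q.HH (S n, S (n + 1))) (h2 : ∀ n, full n → ¬ Q.LL (S n, S (n + 1)))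
    (h3 : ∀ n, full (n + 1) ↔ ¬ full n) : S 0 ∈ Q.U ↔ full 0 := by
  obtain ⟨a, ha⟩ := Q.exists_D (S 0)
  have := ray_aux Q S full h1 h2 h3 a 0 ha
  tauto

/-- The sum of copies of `U`, one for each integer, transported along `e`. -/
def msum {V α : Type} (U : Matroid V) (e : ℤ × V ≃ α) : Matroid α :=
  (Matroid.sum' (fun _ : ℤ => U)).mapEquiv e

theorem msum_ground {V α : Type} {U : Matroid V} (hU : U.E = univ) (e : ℤ × V ≃ α) :
    (msum U e).E = univ := by
  ext x
  simp [msum, hU]

theorem msum_indep {V α : Type} {U : Matroid V} {e : ℤ × V ≃ α} {I : Set α} :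
    (msum U e).Indep I ↔ ∀ m, U.Indep {s | e (m, s) ∈ I} := by
  rw [msum, Matroid.mapEquiv_indep_iff, Matroid.sum'_indep_iff]
  refine forall_congr' fun m => ?_
  have : Prod.mk m ⁻¹' (⇑e.symm '' I) = {s | e (m, s) ∈ I} := by
    ext s
    simp only [mem_preimage, mem_image, mem_ofPred_eq]
    constructor
    · rintro ⟨x, hx, h⟩
      rw [← h]
      simpa using hx
    · intro h
      exact ⟨_, h, by simp⟩
  rw [this]

theorem msum_closure {V α : Type} {U : Matroid V}
    (hU2 : ∀ I : Set V, ∀ x : V, U.Indep I → ¬ U.Indep (insert x I) → U.IsBase I)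
    {e : ℤ × V ≃ α} {J : Set α} (hJ : (msum U e).Indep J) {m : ℤ} {s : V}
    (h : e (m, s) ∈ (msum U e).closure J) : e (m, s) ∈ J ∨ U.IsBase {t | e (m, t) ∈ J} := by
  rw [hJ.mem_closure_iff] at h
  rcases h with h | h
  · right
    have h1 := h.not_indep
    rw [msum_indep] at h1 hJ
    push Not at h1
    obtain ⟨m', hm'⟩ := h1
    by_cases hmm : m' = m
    · subst hmm
      apply hU2 _ s (hJ m')
      have : {t | e (m', t) ∈ insert (e (m', s)) J} = insert s {t | e (m', t) ∈ J} := by
        ext t
        simp [e.injective.eq_iff]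
      rwa [this] at hm'
    · exfalso
      apply hm'
      have : {t | e (m', t) ∈ insert (e (m, s)) J} = {t | e (m', t) ∈ J} := by
        ext t
        simp [e.injective.eq_iff, hmm]
      rw [this]
      exact hJ m'
  · exact Or.inl h

/-- The cells used by the vertex `k`. -/
def phi {W : Type} (k : ℤ) : W ⊕ W → ℤ × W
  | Sum.inl x => (if 0 ≤ k then k else k + 1, x)
  | Sum.inr x => (if 0 ≤ k then k + 1 else k, x)

theorem Phi_bij {W : Type} (p : ℤ) :
    Function.Bijective (fun q : ℤ × (W ⊕ W) => phi (2 * q.1 + p) q.2) := by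
  constructor
  · rintro ⟨m, s⟩ ⟨m', s'⟩ h
    simp only at h
    rcases s with x | x <;> rcases s' with x' | x' <;>
      simp only [phi, Prod.mk.injEq] at h <;> obtain ⟨h1, h2⟩ := h <;> subst h2
    · have : m = m' := by split_ifs at h1 <;> omega
      rw [this]
    · exfalso; split_ifs at h1 <;> omega
    · exfalso; split_ifs at h1 <;> omega
    · have : m = m' := by split_ifs at h1 <;> omega
      rw [this]
  · rintro ⟨c, x⟩
    obtain ⟨m, hm⟩ : ∃ m, c = 2 * m + p ∨ c = 2 * m + p + 1 := ⟨(c - p) / 2, by omega⟩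
    rcases hm with hm | hm
    · by_cases h0 : 0 ≤ 2 * m + p
      · exact ⟨(m, Sum.inl x), by simp [phi, h0, hm]⟩
      · exact ⟨(m, Sum.inr x), by simp [phi, h0, hm]⟩
    · by_cases h0 : 0 ≤ 2 * m + p
      · exact ⟨(m, Sum.inr x), by simp [phi, h0, hm]⟩
      · exact ⟨(m, Sum.inl x), by simp [phi, h0, hm]⟩

noncomputable def Phi {W : Type} (p : ℤ) : ℤ × (W ⊕ W) ≃ ℤ × W :=
  Equiv.ofBijective _ (Phi_bij p)

theorem Phi_apply {W : Type} (p : ℤ) (m : ℤ) (s : W ⊕ W) : Phi p (m, s) = phi (2 * m + p) s := rfl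

theorem phi_fst {W : Type} (k : ℤ) (s : W ⊕ W) : (phi k s).1 = k ∨ (phi k s).1 = k + 1 := by
  rcases s with x | x
  · by_cases h : 0 ≤ k <;> simp [phi, h]
  · by_cases h : 0 ≤ k <;> simp [phi, h]

/-- The failure of intersection. -/
theorem not_inter {α : Type} (Q : Sys (ℕ × ℕ) Om) (g : ℤ × (ℕ × ℕ) ≃ α) :
    ¬ SatisfiesIntersection (msum (mkData Q).mat ((Phi 0).trans g))
      (msum (mkData Q).mat ((Phi 1).trans g)) := by
  classical
  set U := (mkData Q).mat with hUdef
  have hUE : U.E = univ := rfl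
  have hU1 : ∀ I, U.Indep I → ¬ Q.HH (halves I) := fun I hI => Data.mat_indep_not_HH hI
  have hU3 : ∀ I, U.IsBase I → ¬ Q.LL (halves I) := fun I hI => Data.mat_base_not_LL hI
  have hU2 : ∀ I : Set ((ℕ × ℕ) ⊕ (ℕ × ℕ)), ∀ x, U.Indep I → ¬ U.Indep (insert x I) →
    U.IsBase I := fun I x h1 h2 => Data.mat_base_of h1 h2
  rintro ⟨JM, JN, hdisj, hM, hN, hcl⟩
  let J : Set α := JM ∪ JN
  let JJ : ℤ → Set α := fun k => if Even k then JM else JN
  let T : ℤ → Set α → Set ((ℕ × ℕ) ⊕ (ℕ × ℕ)) := fun k X => {s | g (phi k s) ∈ X}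
  let full : ℤ → Prop := fun k => U.IsBase (T k (JJ k))
  let S : ℤ → Set (ℕ × ℕ) := fun c => {x | g (c, x) ∈ J}
  have hJJ : ∀ k, JJ k ⊆ J := by
    intro k
    simp only [JJ]
    split_ifs
    · exact subset_union_left
    · exact subset_union_right
  have hdisj' : ∀ k, Disjoint (JJ k) (JJ (k - 1)) := by
    intro k
    simp only [JJ]
    by_cases hk : Even k
    · have : ¬ Even (k - 1) := by
        rw [Int.even_sub_one]; exact fun h => h hk
      simp [hk, this, hdisj]
    · have : Even (k - 1) := by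
        rw [Int.even_sub_one]; exact hk
      simp [hk, this, hdisj.symm]
  have hind : ∀ k, U.Indep (T k J) := by
    intro k
    rcases Int.even_or_odd' k with ⟨m, hm | hm⟩
    · have := (msum_indep.1 hM) m
      simp only [Equiv.trans_apply, Phi_apply, add_zero] at this
      rw [hm]
      exact this
    · have := (msum_indep.1 hN) m
      simp only [Equiv.trans_apply, Phi_apply] at this
      rw [hm]
      exact this
  have hcover : ∀ c x, g (c, x) ∈ J ∨ full c ∨ full (c - 1) := by
    intro c x
    have hmem : g (c, x) ∈ (msum U ((Phi 0).trans g)).closure JM ∪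
        (msum U ((Phi 1).trans g)).closure JN := by
      rw [hcl, msum_ground hUE]
      exact mem_univ _
    rcases hmem with h | h
    · obtain ⟨⟨m, s⟩, hms⟩ := (Phi 0).surjective (c, x)
      have h' : ((Phi 0).trans g) (m, s) ∈ (msum U ((Phi 0).trans g)).closure JM := by
        simpa [hms] using h
      rcases msum_closure hU2 (hM.subset subset_union_left) h' with h3 | h3
      · left
        left
        simpa [hms] using h3
      · right
        have h4 : full (2 * m) := by
          show U.IsBase (T (2 * m) (JJ (2 * m)))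
          have : JJ (2 * m) = JM := by simp [JJ]
          rw [this]
          simpa [T, Phi_apply] using h3
        have h5 := phi_fst (2 * m) s
        have h6 : (phi (2 * m) s).1 = c := by
          have : Phi 0 (m, s) = phi (2 * m) s := by simp [Phi_apply]
          rw [← this, hms]
        rw [h6] at h5
        rcases h5 with h5 | h5
        · left; rw [h5]; exact h4
        · right; rw [h5]; simpa using h4
    · obtain ⟨⟨m, s⟩, hms⟩ := (Phi 1).surjective (c, x)
      have h' : ((Phi 1).trans g) (m, s) ∈ (msum U ((Phi 1).trans g)).closure JN := by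
        simpa [hms] using h
      rcases msum_closure hU2 (hN.subset subset_union_right) h' with h3 | h3
      · left
        right
        simpa [hms] using h3
      · right
        have h4 : full (2 * m + 1) := by
          show U.IsBase (T (2 * m + 1) (JJ (2 * m + 1)))
          have : JJ (2 * m + 1) = JN := by simp [JJ]
          rw [this]
          simpa [T, Phi_apply] using h3
        have h5 := phi_fst (2 * m + 1) s
        have h6 : (phi (2 * m + 1) s).1 = c := by
          have : Phi 1 (m, s) = phi (2 * m + 1) s := by simp [Phi_apply]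
          rw [← this, hms]
        rw [h6] at h5
        rcases h5 with h5 | h5
        · left; rw [h5]; exact h4
        · right; rw [h5]; simpa using h4
  have hfullJ : ∀ k, full k → T k (JJ k) = T k J := by
    intro k hk
    exact hk.eq_of_subset_indep (hind k) (fun s hs => hJJ k hs)
  have hposT : ∀ k, 0 ≤ k → halves (T k J) = (S k, S (k + 1)) := by
    intro k hk
    ext x
    · simp [halves, T, phi, S, hk]
    · simp [halves, T, phi, S, hk]
  have hnegT : ∀ k, ¬ (0 ≤ k) → halves (T k J) = (S (k + 1), S k) := by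
    intro k hk
    ext x
    · simp [halves, T, phi, S, hk]
    · simp [halves, T, phi, S, hk]
  have hHuniv : ∀ L : Set (ℕ × ℕ), Q.HH (univ, L) := fun L =>
    ⟨Filter.univ_mem, Or.inr (fun a _ => Or.inl Filter.univ_mem)⟩
  have hLempty : ∀ L : Set (ℕ × ℕ), Q.LL (∅, L) := fun L =>
    ⟨Filter.empty_notMem _, Or.inr (fun a _ => Or.inr (by
      show (∅ : Set (ℕ × ℕ))ᶜ ∈ Q.H a
      rw [compl_empty]; exact Filter.univ_mem))⟩
  have hnotLL : ∀ k, full k → ¬ Q.LL (halves (T k J)) := by
    intro k hk
    rw [← hfullJ k hk]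
    exact hU3 _ hk
  -- cells and vertices alternate
  have halt : ∀ c, full c ↔ ¬ full (c - 1) := by
    intro c
    constructor
    · intro h1 h2
      have hS : S c = ∅ := by
        rw [eq_empty_iff_forall_notMem]
        intro x hx
        have e1 := hfullJ c h1
        have e2 := hfullJ (c - 1) h2
        -- the point belongs to both
        obtain ⟨s1, hs1⟩ : ∃ s, phi c s = (c, x) := by
          by_cases h0 : 0 ≤ c
          · exact ⟨Sum.inl x, by simp [phi, h0]⟩
          · exact ⟨Sum.inr x, by simp [phi, h0]⟩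
        obtain ⟨s2, hs2⟩ : ∃ s, phi (c - 1) s = (c, x) := by
          by_cases h0 : 0 ≤ c - 1
          · exact ⟨Sum.inr x, by simp only [phi, h0, if_true]; simp⟩
          · exact ⟨Sum.inl x, by simp only [phi, h0, if_false]; simp⟩
        have m1 : s1 ∈ T c (JJ c) := by
          rw [e1]
          show g (phi c s1) ∈ J
          rw [hs1]
          exact hx
        have m2 : s2 ∈ T (c - 1) (JJ (c - 1)) := by
          rw [e2]
          show g (phi (c - 1) s2) ∈ J
          rw [hs2]
          exact hx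
        have m1' : g (c, x) ∈ JJ c := by
          have : g (phi c s1) ∈ JJ c := m1
          rwa [hs1] at this
        have m2' : g (c, x) ∈ JJ (c - 1) := by
          have : g (phi (c - 1) s2) ∈ JJ (c - 1) := m2
          rwa [hs2] at this
        exact Set.disjoint_left.1 (hdisj' c) m1' m2'
      by_cases h0 : 0 ≤ c
      · have := hnotLL c h1
        rw [hposT c h0, hS] at this
        exact this (hLempty _)
      · have := hnotLL (c - 1) h2
        rw [hnegT (c - 1) (by omega), sub_add_cancel, hS] at this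
        exact this (hLempty _)
    · intro h2
      by_contra h1
      have hS : S c = univ := by
        rw [eq_univ_iff_forall]
        intro x
        rcases hcover c x with h | h | h
        · exact h
        · exact absurd h h1
        · exact absurd h h2
      by_cases h0 : 0 ≤ c
      · have := hU1 _ (hind c)
        rw [hposT c h0, hS] at this
        exact this (hHuniv _)
      · have := hU1 _ (hind (c - 1))
        rw [hnegT (c - 1) (by omega), sub_add_cancel, hS] at this
        exact this (hHuniv _)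
  -- the two rays
  have r1 : S 0 ∈ Q.U ↔ full 0 := by
    refine ray Q (fun n => S n) (fun n => full n) ?_ ?_ ?_
    · intro n
      have := hU1 _ (hind (n : ℤ))
      rw [hposT n (by omega)] at this
      simpa using this
    · intro n hn
      have := hnotLL (n : ℤ) hn
      rw [hposT n (by omega)] at this
      simpa using this
    · intro n
      have := halt ((n + 1 : ℕ) : ℤ)
      simpa using this
  have r2 : S 0 ∈ Q.U ↔ full (-1) := by
    have := ray Q (fun n => S (-(n : ℤ))) (fun n => full (-1 - (n : ℤ))) ?_ ?_ ?_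
    · simpa using this
    · intro n
      have := hU1 _ (hind (-1 - (n : ℤ)))
      rw [hnegT _ (by omega)] at this
      have e1 : (-1 - (n : ℤ) + 1) = -(n : ℤ) := by ring
      have e2 : (-1 - (n : ℤ)) = -((n + 1 : ℕ) : ℤ) := by push_cast; ring
      rw [e1] at this
      rw [e2] at this
      exact this
    · intro n hn
      have := hnotLL _ hn
      rw [hnegT _ (by omega)] at this
      have e1 : (-1 - (n : ℤ) + 1) = -(n : ℤ) := by ring
      have e2 : (-1 - (n : ℤ)) = -((n + 1 : ℕ) : ℤ) := by push_cast; ring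
      rw [e1] at this
      rw [e2] at this
      exact this
    · intro n
      have h := halt (-1 - (n : ℤ))
      have e1 : (-1 - (n : ℤ) - 1) = -1 - ((n + 1 : ℕ) : ℤ) := by push_cast; ring
      rw [e1] at h
      tauto
  have r3 := halt 0
  have e : (0 : ℤ) - 1 = -1 := by norm_num
  rw [e] at r3
  tauto

theorem exists_counterexample (h1 : SplitHyp) (h2 : DomHyp) :
    ∃ M N : Matroid ℕ, M.E = univ ∧ N.E = univ ∧ ¬ SatisfiesIntersection M N := by
  obtain ⟨Q⟩ := exists_sys h1 h2
  obtain ⟨g⟩ : Nonempty (ℤ × (ℕ × ℕ) ≃ ℕ) := by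
    have : Denumerable (ℤ × (ℕ × ℕ)) := inferInstance
    exact ⟨Denumerable.eqv _⟩
  exact ⟨msum (mkData Q).mat ((Phi 0).trans g), msum (mkData Q).mat ((Phi 1).trans g),
    msum_ground rfl _, msum_ground rfl _, not_inter Q g⟩

theorem exists_counterexample_pc (h1 : SplitHyp) (h2 : DomHyp) :
    ∃ M : Bool → Matroid ℕ, (∀ i, (M i).E = univ) ∧ ¬ HasPackingCovering M univ := by
  obtain ⟨M, N, hM, hN, hMN⟩ := exists_counterexample h1 h2
  refine ⟨fun b : Bool => bif b then N✶ else M, ?_, fun h => hMN (inter_of_pc M N hM hN h)⟩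
  intro b
  cases b
  · exact hM
  · exact hN

end Vale.Agent.P068
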