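import Vale.Agent.P068.Pick

namespace Vale.Agent.P068

open Set Cardinal

/-- A chain of filters on a cell, exhausting an ultrafilter, with enough room for splitting. -/
structure Sys (W Ω : Type) [LinearOrder Ω] where
  H : Ω → Filter W
  U : Ultrafilter W
  mono : ∀ {a b : Ω}, a ≤ b → H b ≤ H a
  le_cof : ∀ a, H a ≤ Filter.cofinite
  mem_U : ∀ {S : Set W}, S ∈ U ↔ ∃ a, S ∈ H a
  split : ∀ (a : Ω) (X : Set W), Xᶜ ∉ H a → ∀ 𝒲 : Set (Set W), #𝒲 < 𝔠 → (∀ A ∈ 𝒲, A.Infinite) →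
    ∃ b : Set W, (∀ A ∈ 𝒲, (A ∩ b).Infinite ∧ (A \ b).Infinite) ∧ (X ∩ b)ᶜ ∉ H a ∧ (X \ b)ᶜ ∉ H a
  hit : ∀ (a : Ω) (𝒴 𝒲 : Set (Set W)), #𝒴 < 𝔠 → #𝒲 < 𝔠 → (∀ Y ∈ 𝒴, Yᶜ ∉ H a) →
    (∀ A ∈ 𝒲, A.Infinite) →
    ∃ D : Set W, Dᶜ ∈ H a ∧ (∀ Y ∈ 𝒴, (D ∩ Y).Infinite) ∧ ∀ A ∈ 𝒲, (A \ D).Infinite

variable {W Ω : Type} [LinearOrder Ω] (Q : Sys W Ω)

/-- The filter with index `a` decides `S`. -/
def Sys.D (a : Ω) (S : Set W) : Prop := S ∈ Q.H a ∨ Sᶜ ∈ Q.H a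

def Sys.HH (X : Set W × Set W) : Prop := X.1 ∈ Q.U ∧ (X.2 ∈ Q.U ∨ ∀ a, Q.D a X.2 → Q.D a X.1)

def Sys.LL (X : Set W × Set W) : Prop := X.1 ∉ Q.U ∧ (X.2 ∉ Q.U ∨ ∀ a, Q.D a X.2 → Q.D a X.1)

/-- Inclusion up to a finite set. -/
def AS {α : Type*} (A B : Set α) : Prop := (A \ B).Finite

theorem AS.refl {α : Type*} (A : Set α) : AS A A := by simp [AS]

theorem AS.of_subset {α : Type*} {A B : Set α} (h : A ⊆ B) : AS A B := by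
  simp [AS, sdiff_eq_empty.2 h]

theorem AS.trans {α : Type*} {A B C : Set α} (h1 : AS A B) (h2 : AS B C) : AS A C := by
  refine (h1.union h2).subset ?_
  rintro x ⟨hx, hx2⟩
  by_cases hb : x ∈ B
  · exact Or.inr ⟨hb, hx2⟩
  · exact Or.inl ⟨hx, hb⟩

theorem AS.compl {α : Type*} {A B : Set α} (h : AS A B) : AS Bᶜ Aᶜ := by
  refine h.subset ?_
  rintro x ⟨hx, hx2⟩
  exact ⟨not_not.1 hx2, hx⟩

namespace Sys

variable {Q}

theorem le_U (a : Ω) {S : Set W} (h : S ∈ Q.H a) : S ∈ Q.U := Q.mem_U.2 ⟨a, h⟩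

theorem memH_mono {a b : Ω} (h : a ≤ b) {S : Set W} (hS : S ∈ Q.H a) : S ∈ Q.H b := Q.mono h hS

theorem memH_AS {a : Ω} {S T : Set W} (hST : AS S T) (hS : S ∈ Q.H a) : T ∈ Q.H a := by
  have h1 : (S \ T)ᶜ ∈ Q.H a := Q.le_cof a hST.compl_mem_cofinite
  filter_upwards [hS, h1] with x hx hx2
  by_contra h
  exact hx2 ⟨hx, h⟩

theorem memU_AS {S T : Set W} (hST : AS S T) (hS : S ∈ Q.U) : T ∈ Q.U := by
  obtain ⟨a, ha⟩ := Q.mem_U.1 hS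
  exact Q.mem_U.2 ⟨a, memH_AS hST ha⟩

theorem compl_mem_U {S : Set W} : Sᶜ ∈ Q.U ↔ S ∉ Q.U := Ultrafilter.compl_mem_iff_notMem

theorem D_compl {a : Ω} {S : Set W} : Q.D a Sᶜ ↔ Q.D a S := by
  unfold D
  rw [compl_compl]
  exact or_comm

theorem D_mono {a b : Ω} (h : a ≤ b) {S : Set W} (hS : Q.D a S) : Q.D b S :=
  hS.imp (memH_mono h) (memH_mono h)

theorem exists_D (S : Set W) : ∃ a, Q.D a S := by
  by_cases h : S ∈ Q.U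
  · obtain ⟨a, ha⟩ := Q.mem_U.1 h
    exact ⟨a, Or.inl ha⟩
  · obtain ⟨a, ha⟩ := Q.mem_U.1 (compl_mem_U.2 h)
    exact ⟨a, Or.inr ha⟩

theorem D_iff_of_mem {a : Ω} {S : Set W} (h : S ∈ Q.U) : Q.D a S ↔ S ∈ Q.H a := by
  refine ⟨?_, Or.inl⟩
  rintro (h1 | h1)
  · exact h1
  · exact absurd h (compl_mem_U.1 (le_U a h1))

theorem D_iff_of_notMem {a : Ω} {S : Set W} (h : S ∉ Q.U) : Q.D a S ↔ Sᶜ ∈ Q.H a := by
  refine ⟨?_, Or.inr⟩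
  rintro (h1 | h1)
  · exact absurd (le_U a h1) h
  · exact h1

theorem D_up {a : Ω} {S T : Set W} (hST : AS S T) (hS : S ∈ Q.U) (h : Q.D a S) : Q.D a T :=
  Or.inl (memH_AS hST ((D_iff_of_mem hS).1 h))

theorem D_down {a : Ω} {S T : Set W} (hST : AS S T) (hT : T ∉ Q.U) (h : Q.D a T) : Q.D a S :=
  Or.inr (memH_AS hST.compl ((D_iff_of_notMem hT).1 h))

theorem HH_up {X Y : Set W × Set W} (h1 : AS X.1 Y.1) (h2 : AS X.2 Y.2) (h : Q.HH X) : Q.HH Y := by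
  obtain ⟨hX1, hX⟩ := h
  refine ⟨memU_AS h1 hX1, ?_⟩
  by_cases hY2 : Y.2 ∈ Q.U
  · exact Or.inl hY2
  right
  have hX2 : X.2 ∉ Q.U := fun h => hY2 (memU_AS h2 h)
  intro a ha
  exact D_up h1 hX1 ((hX.resolve_left hX2) a (D_down h2 hY2 ha))

theorem HH_compl {X : Set W × Set W} : Q.HH (X.1ᶜ, X.2ᶜ) ↔ Q.LL X := by
  unfold HH LL
  simp only [compl_mem_U, D_compl]

theorem LL_compl {X : Set W × Set W} : Q.LL (X.1ᶜ, X.2ᶜ) ↔ Q.HH X := by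
  rw [← HH_compl]
  simp

theorem LL_down {X Y : Set W × Set W} (h1 : AS X.1 Y.1) (h2 : AS X.2 Y.2) (h : Q.LL Y) :
    Q.LL X := by
  rw [← HH_compl] at h ⊢
  exact HH_up h1.compl h2.compl h

theorem HH_univ : Q.HH (univ, univ) :=
  ⟨Filter.univ_mem, Or.inl Filter.univ_mem⟩

theorem LL_empty : Q.LL (∅, ∅) := by
  rw [← HH_compl]
  simpa using HH_univ

/-- `B` is generic over the interval from `I` to `Z` with respect to `B'`. -/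
def Gen (I Z B' B : Set W) : Prop :=
  ((B' \ I).Infinite → (B' \ B).Infinite) ∧ ((Z \ B').Infinite → (B \ B').Infinite)

/-- The family of sets to be split in order to be generic. -/
def genFam (I Z : Set W) (𝓑 : Set (Set W)) : Set (Set W) :=
  ((fun B' => (B' \ I) ∩ Z) '' 𝓑 ∪ (fun B' => (Z \ I) \ B') '' 𝓑) ∩ {A | A.Infinite}

theorem genFam_lt {I Z : Set W} {𝓑 : Set (Set W)} (h : #𝓑 < 𝔠) : #(genFam I Z 𝓑) < 𝔠 := by
  refine lt_of_le_of_lt (Cardinal.mk_le_mk_of_subset inter_subset_left) ?_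
  refine lt_of_le_of_lt (Cardinal.mk_union_le _ _) ?_
  exact Cardinal.add_lt_of_lt Cardinal.aleph0_le_continuum
    (lt_of_le_of_lt Cardinal.mk_image_le h) (lt_of_le_of_lt Cardinal.mk_image_le h)

theorem gen_of_split {I Z : Set W} {𝓑 : Set (Set W)} {b : Set W}
    (hb : ∀ A ∈ genFam I Z 𝓑, (A ∩ b).Infinite ∧ (A \ b).Infinite) {B' : Set W} (hB' : B' ∈ 𝓑) :
    Gen I Z B' (I ∪ ((Z \ I) ∩ b)) := by
  constructor
  · intro h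
    by_cases hf : ((B' \ I) ∩ Z).Finite
    · have : ((B' \ I) \ Z).Infinite := by
        intro h'
        apply h
        rw [← inter_union_sdiff (B' \ I) Z]
        exact hf.union h'
      refine this.mono ?_
      rintro x ⟨⟨h1, h2⟩, h3⟩
      refine ⟨h1, ?_⟩
      rintro (h4 | ⟨⟨h4, _⟩, _⟩)
      · exact h2 h4
      · exact h3 h4
    · refine ((hb _ ⟨Or.inl ⟨B', hB', rfl⟩, hf⟩).2).mono ?_
      rintro x ⟨⟨⟨h1, h2⟩, h3⟩, h4⟩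
      refine ⟨h1, ?_⟩
      rintro (h5 | ⟨_, h5⟩)
      · exact h2 h5
      · exact h4 h5
  · intro h
    by_cases hf : ((Z \ I) \ B').Finite
    · have : (I \ B').Infinite := by
        intro h'
        apply h
        refine (hf.union h').subset ?_
        rintro x ⟨hx1, hx2⟩
        by_cases hxI : x ∈ I
        · exact Or.inr ⟨hxI, hx2⟩
        · exact Or.inl ⟨⟨hx1, hxI⟩, hx2⟩
      refine this.mono ?_
      rintro x ⟨h1, h2⟩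
      exact ⟨Or.inl h1, h2⟩
    · refine ((hb _ ⟨Or.inr ⟨B', hB', rfl⟩, hf⟩).1).mono ?_
      rintro x ⟨⟨⟨h1, h2⟩, h3⟩, h4⟩
      exact ⟨Or.inr ⟨⟨h1, h2⟩, h4⟩, h3⟩

theorem gen_of_split' {I Z : Set W} {𝓑 : Set (Set W)} {b : Set W}
    (hb : ∀ A ∈ genFam I Z 𝓑, (A ∩ b).Infinite ∧ (A \ b).Infinite) {B' : Set W} (hB' : B' ∈ 𝓑) :
    Gen I Z B' (I ∪ ((Z \ I) \ b)) := by
  have hb' : ∀ A ∈ genFam I Z 𝓑, (A ∩ bᶜ).Infinite ∧ (A \ bᶜ).Infinite := by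
    intro A hA
    obtain ⟨h1, h2⟩ := hb A hA
    refine ⟨?_, ?_⟩
    · rwa [← sdiff_eq]
    · rwa [sdiff_compl]
  have := gen_of_split hb' hB'
  rwa [← sdiff_eq] at this

end Sys

end Vale.Agent.P068
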