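import Vale.Agent.P068.Sys

namespace Vale.Agent.P068

open Set

/-- Finite difference of equal size. -/
def Sw {V : Type*} (X B : Set V) : Prop := (X \ B).Finite ∧ (X \ B).encard = (B \ X).encard

namespace Sw

variable {V : Type*} {X Y Z B : Set V}

theorem refl (X : Set V) : Sw X X := by simp [Sw]

theorem fin' (h : Sw X B) : (B \ X).Finite := by
  rw [← encard_lt_top_iff, ← h.2, encard_lt_top_iff]
  exact h.1

theorem symm (h : Sw X B) : Sw B X := ⟨h.fin', h.2.symm⟩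

theorem as (h : Sw X B) : AS X B := h.1

theorem as' (h : Sw X B) : AS B X := h.fin'

theorem iff_of {F : Set V} (hF : F.Finite) (h : X \ F = Y \ F) :
    Sw X Y ↔ (X ∩ F).encard = (Y ∩ F).encard := by
  have h1 : X \ Y ⊆ F := by
    rintro x ⟨hx, hy⟩
    by_contra hxF
    have : x ∈ Y \ F := h ▸ ⟨hx, hxF⟩
    exact hy this.1
  have h2 : Y \ X ⊆ F := by
    rintro x ⟨hx, hy⟩
    by_contra hxF
    have : x ∈ X \ F := h.symm ▸ ⟨hx, hxF⟩
    exact hy this.1
  have h3 : (X ∩ F).encard = (X \ Y).encard + (X ∩ Y ∩ F).encard := by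
    rw [← encard_union_eq]
    · congr 1
      ext x
      constructor
      · rintro ⟨hx, hxF⟩
        by_cases hy : x ∈ Y
        · exact Or.inr ⟨⟨hx, hy⟩, hxF⟩
        · exact Or.inl ⟨hx, hy⟩
      · rintro (hx | hx)
        · exact ⟨hx.1, h1 hx⟩
        · exact ⟨hx.1.1, hx.2⟩
    · rw [Set.disjoint_left]
      rintro x hx hx2
      exact hx.2 hx2.1.2
  have h4 : (Y ∩ F).encard = (Y \ X).encard + (X ∩ Y ∩ F).encard := by
    rw [← encard_union_eq]
    · congr 1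
      ext x
      constructor
      · rintro ⟨hx, hxF⟩
        by_cases hy : x ∈ X
        · exact Or.inr ⟨⟨hy, hx⟩, hxF⟩
        · exact Or.inl ⟨hx, hy⟩
      · rintro (hx | hx)
        · exact ⟨hx.1, h2 hx⟩
        · exact ⟨hx.1.2, hx.2⟩
    · rw [Set.disjoint_left]
      rintro x hx hx2
      exact hx.2 hx2.1.1
  have h5 : (X ∩ Y ∩ F).encard ≠ ⊤ := by
    rw [encard_ne_top_iff]
    exact hF.subset inter_subset_right
  rw [h3, h4]
  constructor
  · intro hs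
    rw [hs.2]
  · intro hs
    exact ⟨hF.subset h1, ENat.add_left_injective_of_ne_top h5 hs⟩

theorem trans (h1 : Sw X Y) (h2 : Sw Y Z) : Sw X Z := by
  let F : Set V := (X \ Y) ∪ (Y \ X) ∪ (Y \ Z) ∪ (Z \ Y)
  have hF : F.Finite := ((h1.1.union h1.fin').union h2.1).union h2.fin'
  have hXY : X \ F = Y \ F := by
    ext x
    simp only [F, mem_sdiff, mem_union]
    tauto
  have hYZ : Y \ F = Z \ F := by
    ext x
    simp only [F, mem_sdiff, mem_union]
    tauto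
  rw [iff_of hF hXY] at h1
  rw [iff_of hF hYZ] at h2
  rw [iff_of hF (hXY.trans hYZ)]
  exact h1.trans h2

theorem eq_of_subset (h : Sw X Y) (hs : X ⊆ Y) : X = Y := by
  refine hs.antisymm ?_
  have h1 : (Y \ X).encard = 0 := by
    rw [← h.2, sdiff_eq_empty.2 hs, encard_empty]
  rw [encard_eq_zero, sdiff_eq_empty] at h1
  exact h1

theorem swap {a b : V} (ha : a ∈ X) (hb : b ∉ X) : Sw (insert b (X \ {a})) X := by
  have hab : b ≠ a := fun h => hb (h ▸ ha)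
  have h1 : insert b (X \ {a}) \ X = {b} := by
    ext x
    simp only [mem_sdiff, mem_insert_iff, mem_singleton_iff]
    constructor
    · rintro ⟨h | h, h2⟩
      · exact h
      · exact absurd h.1 h2
    · rintro rfl
      exact ⟨Or.inl rfl, hb⟩
  have h2 : X \ insert b (X \ {a}) = {a} := by
    ext x
    simp only [mem_sdiff, mem_insert_iff, mem_singleton_iff]
    constructor
    · rintro ⟨h, h2⟩
      by_contra h3
      exact h2 (Or.inr ⟨h, h3⟩)
    · rintro rfl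
      refine ⟨ha, ?_⟩
      rintro (h | h)
      · exact hab h.symm
      · exact h.2 rfl
  refine ⟨?_, ?_⟩
  · rw [h1]; exact finite_singleton b
  · rw [h1, h2]; simp

end Sw

variable {V : Type*}

theorem sw_delta {S B : Set V} (h : AS S B ∨ AS B S) :
    (∃ X, Sw X B ∧ S ⊆ X) ∨ (∃ X, Sw X B ∧ X ⊆ S) := by
  rcases le_total (S \ B).encard (B \ S).encard with hle | hle
  · left
    have hfin : (S \ B).Finite := by
      rcases h with h | h
      · exact h
      · rw [← encard_lt_top_iff]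
        exact lt_of_le_of_lt hle (encard_lt_top_iff.2 h)
    obtain ⟨F, hF, hFc⟩ := exists_subset_encard_eq hle
    have h1 : ((B \ F) ∪ (S \ B)) \ B = S \ B := by
      ext x
      simp only [mem_sdiff, mem_union]
      tauto
    have h2 : B \ ((B \ F) ∪ (S \ B)) = F := by
      ext x
      simp only [mem_sdiff, mem_union]
      constructor
      · rintro ⟨hx, hx2⟩
        by_contra hxF
        exact hx2 (Or.inl ⟨hx, hxF⟩)
      · intro hx
        refine ⟨(hF hx).1, ?_⟩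
        rintro (h3 | h3)
        · exact h3.2 hx
        · exact h3.2 (hF hx).1
    refine ⟨(B \ F) ∪ (S \ B), ⟨?_, ?_⟩, ?_⟩
    · rw [h1]; exact hfin
    · rw [h1, h2, hFc]
    · intro x hx
      by_cases hxB : x ∈ B
      · exact Or.inl ⟨hxB, fun hxF => (hF hxF).2 hx⟩
      · exact Or.inr ⟨hx, hxB⟩
  · right
    have hfin : (B \ S).Finite := by
      rcases h with h | h
      · rw [← encard_lt_top_iff]
        exact lt_of_le_of_lt hle (encard_lt_top_iff.2 h)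
      · exact h
    obtain ⟨G, hG, hGc⟩ := exists_subset_encard_eq hle
    have h1 : ((B ∩ S) ∪ G) \ B = G := by
      ext x
      simp only [mem_sdiff, mem_union, mem_inter_iff]
      constructor
      · rintro ⟨h3 | h3, h4⟩
        · exact absurd h3.1 h4
        · exact h3
      · intro hx
        exact ⟨Or.inr hx, (hG hx).2⟩
    have h2 : B \ ((B ∩ S) ∪ G) = B \ S := by
      ext x
      simp only [mem_sdiff, mem_union, mem_inter_iff]
      constructor
      · rintro ⟨h3, h4⟩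
        exact ⟨h3, fun h5 => h4 (Or.inl ⟨h3, h5⟩)⟩
      · rintro ⟨h3, h4⟩
        refine ⟨h3, ?_⟩
        rintro (h5 | h5)
        · exact h4 h5.2
        · exact (hG h5).2 h3
    refine ⟨(B ∩ S) ∪ G, ⟨?_, ?_⟩, ?_⟩
    · rw [h1]
      rw [← encard_lt_top_iff, hGc]
      exact encard_lt_top_iff.2 hfin
    · rw [h1, h2, hGc]
    · rintro x (hx | hx)
      · exact hx.2
      · exact (hG hx).1

theorem sw_interval {I Z X₁ X₂ B : Set V} (hIZ : I ⊆ Z) (h1 : Sw X₁ B) (hI : I ⊆ X₁)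
    (h2 : Sw X₂ B) (hZ : X₂ ⊆ Z) : ∃ J, Sw J B ∧ I ⊆ J ∧ J ⊆ Z := by
  have h12 : Sw X₁ X₂ := h1.trans h2.symm
  have hle : (X₁ \ Z).encard ≤ (X₂ \ X₁).encard := by
    rw [← h12.2]
    exact encard_le_encard (sdiff_subset_sdiff_right hZ)
  obtain ⟨G, hG, hGc⟩ := exists_subset_encard_eq hle
  have h3 : ((X₁ ∩ Z) ∪ G) \ X₁ = G := by
    ext x
    simp only [mem_sdiff, mem_union, mem_inter_iff]
    constructor
    · rintro ⟨h3 | h3, h4⟩
      · exact absurd h3.1 h4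
      · exact h3
    · intro hx
      exact ⟨Or.inr hx, (hG hx).2⟩
  have h4 : X₁ \ ((X₁ ∩ Z) ∪ G) = X₁ \ Z := by
    ext x
    simp only [mem_sdiff, mem_union, mem_inter_iff]
    constructor
    · rintro ⟨h3, h4⟩
      exact ⟨h3, fun h5 => h4 (Or.inl ⟨h3, h5⟩)⟩
    · rintro ⟨h3, h4⟩
      refine ⟨h3, ?_⟩
      rintro (h5 | h5)
      · exact h4 h5.2
      · exact (hG h5).2 h3
  refine ⟨(X₁ ∩ Z) ∪ G, Sw.trans ⟨?_, ?_⟩ h1, ?_, ?_⟩
  · rw [h3, ← encard_lt_top_iff, hGc]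
    refine lt_of_le_of_lt hle ?_
    rw [encard_lt_top_iff]
    exact h12.fin'
  · rw [h3, h4, hGc]
  · intro x hx
    exact Or.inl ⟨hI hx, hIZ hx⟩
  · rintro x (hx | hx)
    · exact hx.2
    · exact hZ (hG hx).1

/-- The data from which a uniform matroid is built. -/
structure Data (V : Type) where
  HH : Set V → Prop
  LL : Set V → Prop
  HH_up : ∀ {X Y}, AS X Y → HH X → HH Y
  LL_down : ∀ {X Y}, AS X Y → LL Y → LL X
  HH_univ : HH univ
  LL_empty : LL ∅
  disj : ∀ X, HH X → ¬ LL X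
  BB : Set (Set V)
  mid : ∀ B ∈ BB, ¬ HH B ∧ ¬ LL B
  anti : ∀ B ∈ BB, ∀ B' ∈ BB, AS B B' → B = B'
  interp : ∀ I Z, I ⊆ Z → ¬ HH I → ¬ LL Z → ∃ B ∈ BB, AS B I ∨ AS Z B ∨ (I ⊆ B ∧ B ⊆ Z)

namespace Data

variable {V : Type} (K : Data V)

def Base (X : Set V) : Prop := ∃ B ∈ K.BB, Sw X B

variable {K}

theorem Base.not_HH {X : Set V} (h : K.Base X) : ¬ K.HH X := by
  obtain ⟨B, hB, hX⟩ := h
  exact fun h => (K.mid B hB).1 (K.HH_up hX.as h)

theorem Base.not_LL {X : Set V} (h : K.Base X) : ¬ K.LL X := by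
  obtain ⟨B, hB, hX⟩ := h
  exact fun h => (K.mid B hB).2 (K.LL_down hX.as' h)

theorem anti' {X Y B B' : Set V} (hB : B ∈ K.BB) (hB' : B' ∈ K.BB) (hX : Sw X B) (hY : Sw Y B')
    (h : AS X Y) : B = B' :=
  K.anti B hB B' hB' ((hX.as'.trans h).trans hY.as)

theorem Base.eq_of_subset {X Y : Set V} (hX : K.Base X) (hY : K.Base Y) (h : X ⊆ Y) : X = Y := by
  obtain ⟨B, hB, hXB⟩ := hX
  obtain ⟨B', hB', hYB⟩ := hY
  have := anti' hB hB' hXB hYB (AS.of_subset h)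
  subst this
  exact (hXB.trans hYB.symm).eq_of_subset h

theorem dich (Y : Set V) : (∃ X, K.Base X ∧ Y ⊆ X) ∨ (∃ X, K.Base X ∧ X ⊆ Y) := by
  by_cases hY : K.HH Y
  · obtain ⟨B, hB, h | h | h⟩ := K.interp ∅ Y (empty_subset _) (fun h => K.disj _ h K.LL_empty)
      (K.disj _ hY)
    · exact absurd (K.LL_down h K.LL_empty) (K.mid B hB).2
    · exact absurd (K.HH_up h hY) (K.mid B hB).1
    · exact Or.inr ⟨B, ⟨B, hB, Sw.refl B⟩, h.2⟩
  · obtain ⟨B, hB, h | h | h⟩ := K.interp Y univ (subset_univ _) hY (K.disj _ K.HH_univ)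
    · rcases sw_delta (S := Y) (B := B) (Or.inr h) with ⟨X, hX, hs⟩ | ⟨X, hX, hs⟩
      · exact Or.inl ⟨X, ⟨B, hB, hX⟩, hs⟩
      · exact Or.inr ⟨X, ⟨B, hB, hX⟩, hs⟩
    · exact absurd (K.HH_up h K.HH_univ) (K.mid B hB).1
    · exact Or.inl ⟨B, ⟨B, hB, Sw.refl B⟩, h.1⟩

theorem exists_between {I Z X₁ : Set V} (hIZ : I ⊆ Z) (hX₁ : K.Base X₁) (hI : I ⊆ X₁)
    (hZ : ¬ ∃ X, K.Base X ∧ Z ⊆ X) : ∃ J, K.Base J ∧ I ⊆ J ∧ J ⊆ Z := by
  have hIH : ¬ K.HH I := fun h => hX₁.not_HH (K.HH_up (AS.of_subset hI) h)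
  have hZL : ¬ K.LL Z := by
    intro h
    rcases dich (K := K) Z with h1 | ⟨X, hX, hs⟩
    · exact hZ h1
    · exact hX.not_LL (K.LL_down (AS.of_subset hs) h)
  obtain ⟨B₀, hB₀, hX₁B⟩ := hX₁
  obtain ⟨B, hB, h | h | h⟩ := K.interp I Z hIZ hIH hZL
  · have hBB : B = B₀ := K.anti B hB B₀ hB₀ ((h.trans (AS.of_subset hI)).trans hX₁B.as)
    subst hBB
    rcases sw_delta (S := Z) (B := B) (Or.inr (h.trans (AS.of_subset hIZ))) with
      ⟨X, hX, hs⟩ | ⟨X, hX, hs⟩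
    · exact absurd ⟨X, ⟨B, hB, hX⟩, hs⟩ hZ
    · obtain ⟨J, hJ, h3, h4⟩ := sw_interval hIZ hX₁B hI hX hs
      exact ⟨J, ⟨B, hB, hJ⟩, h3, h4⟩
  · rcases sw_delta (S := Z) (B := B) (Or.inl h) with ⟨X, hX, hs⟩ | ⟨X, hX, hs⟩
    · exact absurd ⟨X, ⟨B, hB, hX⟩, hs⟩ hZ
    · obtain ⟨X', hX', hIX'⟩ : ∃ X', Sw X' B ∧ I ⊆ X' := by
        rcases sw_delta (S := I) (B := B) (Or.inl ((AS.of_subset hIZ).trans h)) with
          h5 | ⟨X₃, hX₃, hs₃⟩
        · exact h5
        · have hBB : B = B₀ := anti' hB hB₀ hX₃ hX₁B (AS.of_subset (hs₃.trans hI))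
          subst hBB
          exact ⟨X₁, hX₁B, hI⟩
      obtain ⟨J, hJ, h3, h4⟩ := sw_interval hIZ hX' hIX' hX hs
      exact ⟨J, ⟨B, hB, hJ⟩, h3, h4⟩
  · exact ⟨B, ⟨B, hB, Sw.refl B⟩, h.1, h.2⟩

variable (K) in
/-- The uniform matroid. -/
def mat : Matroid V where
  E := univ
  IsBase := K.Base
  Indep := fun I => ∃ X, K.Base X ∧ I ⊆ X
  indep_iff' := fun _ => Iff.rfl
  exists_isBase := by
    rcases dich (K := K) ∅ with ⟨X, hX, _⟩ | ⟨X, hX, _⟩
    · exact ⟨X, hX⟩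
    · exact ⟨X, hX⟩
  isBase_exchange := by
    intro X Y hX hY a ha
    obtain ⟨b, hb⟩ : (Y \ X).Nonempty := by
      by_contra hcon
      rw [not_nonempty_iff_eq_empty, sdiff_eq_empty] at hcon
      have := hY.eq_of_subset hX hcon
      subst this
      exact ha.2 ha.1
    refine ⟨b, hb, ?_⟩
    obtain ⟨B, hB, hXB⟩ := hX
    exact ⟨B, hB, (Sw.swap ha.1 hb.2).trans hXB⟩
  maximality := by
    intro Z _ I hI hIZ
    obtain ⟨X₁, hX₁, hIX₁⟩ := hI
    by_cases hZ : ∃ X, K.Base X ∧ Z ⊆ X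
    · refine ⟨Z, hIZ, ⟨hZ, Subset.rfl⟩, ?_⟩
      intro Y hY _
      exact hY.2
    · obtain ⟨J, hJ, hIJ, hJZ⟩ := exists_between hIZ hX₁ hIX₁ hZ
      refine ⟨J, hIJ, ⟨⟨J, hJ, Subset.rfl⟩, hJZ⟩, ?_⟩
      rintro Y ⟨⟨X', hX', hYX'⟩, _⟩ hJY
      have := hJ.eq_of_subset hX' (hJY.trans hYX')
      subst this
      exact hYX'
  subset_ground := fun _ _ => subset_univ _

theorem mat_indep_not_HH {I : Set V} (h : K.mat.Indep I) : ¬ K.HH I := by
  obtain ⟨X, hX, hI⟩ := h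
  exact fun h => hX.not_HH (K.HH_up (AS.of_subset hI) h)

theorem mat_base_not_LL {I : Set V} (h : K.mat.IsBase I) : ¬ K.LL I :=
  Base.not_LL h

theorem mat_base_of {I : Set V} {e : V} (h : K.mat.Indep I) (h2 : ¬ K.mat.Indep (insert e I)) :
    K.mat.IsBase I := by
  rcases dich (K := K) (insert e I) with h3 | ⟨X, hX, hs⟩
  · exact absurd h3 h2
  · have h4 : K.mat.Spanning (insert e I) := by
      have : K.mat.IsBase X := hX
      exact this.spanning_of_superset hs (subset_univ _)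
    have h5 : e ∈ K.mat.closure I := (h.mem_closure_iff).2 (by
      left
      exact ⟨h2, subset_univ _⟩)
    apply h.isBase_of_ground_subset_closure
    rw [← Matroid.closure_insert_eq_of_mem_closure h5, h4.closure_eq]

end Data

end Vale.Agent.P068
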